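import Vale.Agent.Lib.P195.Rig.Deform
import Vale.Agent.Lib.P195.Rig.Rep

namespace Vale.Agent.Lib.P176

open CategoryTheory Abelian Vale.Agent.Lib.P195.Rig

universe u

section

variable {k : Type*} [Field k] {R : Type u} [Ring R] [Algebra k R] {n : ℕ}
  (e : Module.Basis (Fin n) k R)

/-- Projectivity is an open condition in a family whose matrices have entries in a function
algebra `S`. -/
theorem open_proj {ι : Type*} {d : ℕ} (S : Subalgebra k (ι → k))
    (V : ι → Type u) [∀ z, AddCommGroup (V z)] [∀ z, Module k (V z)] [∀ z, Module R (V z)]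
    [∀ z, IsScalarTower k R (V z)] (b : ∀ z, Module.Basis (Fin d) k (V z))
    (hS : ∀ i a c, (fun z => rep e (b z) i a c) ∈ S)
    (z₀ : ι) (h₀ : Module.Projective R (V z₀)) :
    ∃ f ∈ S, f z₀ ≠ 0 ∧ ∀ z, f z ≠ 0 → Module.Projective R (V z) := by
  classical
  have hext : Subsingleton (Ext (ModuleCat.of R (V z₀)) (ModuleCat.of R (V z₀)) 1) := by
    have := projective_iff_subsingleton_ext_one.1 ((IsProjective.iff_projective (V z₀)).1 h₀)
    exact @this _
  have hrig : Rigid (gam e) (rep e (b z₀)) := rigid_of_ext e (b z₀) hext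
  let π : ι → (S →ₐ[k] k) := fun z => (Pi.evalAlgHom k (fun _ => k) z).comp S.val
  have hsep : ∀ x y : S, (∀ z, π z x = π z y) → x = y := by
    intro x y h
    apply Subtype.ext
    funext z
    exact h z
  let A : Fin n → Matrix (Fin d) (Fin d) S := fun i => Matrix.of fun a c =>
    ⟨fun z => rep e (b z) i a c, hS i a c⟩
  have hAπ : ∀ z i, (A i).map (π z) = rep e (b z) i := by
    intro z i
    ext a c
    rfl
  have hA : ∀ i j, A i * A j = ∑ l, algebraMap k S (gam e i j l) • A l := by
    intro i j
    refine Matrix.ext fun a c => ?_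
    apply hsep
    intro z
    have h1 : (π z) ((A i * A j) a c) = ((A i).map (π z) * (A j).map (π z)) a c := by
      rw [← Matrix.map_mul]
      rfl
    have h2 : (π z) ((∑ l, algebraMap k S (gam e i j l) • A l) a c)
        = (∑ l, gam e i j l • (A l).map (π z)) a c := by
      simp [Matrix.sum_apply, map_sum, Matrix.smul_apply, smul_eq_mul]
    rw [h1, h2]
    simp only [hAπ]
    rw [rep_mul]
  have hrig' : Rigid (gam e) (fun i => (A i).map (π z₀)) := by
    have : (fun i => (A i).map (π z₀)) = rep e (b z₀) := by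
      funext i
      exact hAπ z₀ i
    rw [this]
    exact hrig
  obtain ⟨g, hg, hdet⟩ := exists_intertwiner (gam e) A hA (π z₀) hrig'
  refine ⟨(g.det : S), g.det.2, hdet, fun z hz => ?_⟩
  have hz' : π z g.det ≠ 0 := hz
  let G : Matrix (Fin d) (Fin d) k := g.map (π z)
  have hG : G.det = π z g.det := by
    simpa [G] using (AlgHom.map_det (π z) g).symm
  have hi : ∀ i, rep e (b z) i * G = G * rep e (b z₀) i := by
    intro i
    have h1 := congrArg (fun M : Matrix (Fin d) (Fin d) S => M.map (π z)) (hg i)
    simp only [Matrix.map_mul] at h1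
    rw [hAπ, hAπ] at h1
    have h2 : ((rep e (b z₀) i).map (algebraMap k S)).map (π z) = rep e (b z₀) i := by
      ext a c
      simp
    rw [h2] at h1
    exact h1
  obtain ⟨ψ⟩ := iso_of_conj e (b z) (b z₀) G (by rw [hG]; exact isUnit_iff_ne_zero.2 hz') hi
  exact Module.Projective.of_equiv ψ


section Kernel

variable {d : ℕ} {V : Type u} [AddCommGroup V] [Module k V] [Module R V] [IsScalarTower k R V]
  (b : Module.Basis (Fin d) k V)

set_option linter.unusedSectionVars false

/-- The free cover of a module with a `k`-basis. -/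
noncomputable def phi : (Fin d → R) →ₗ[R] V := Fintype.linearCombination R (⇑b)

omit [IsScalarTower k R V] in
lemma phi_apply (x : Fin d → R) : phi (R := R) b x = ∑ l, x l • b l := by
  simp [phi, Fintype.linearCombination_apply]

/-- The `k`-linear section of `phi`. -/
noncomputable def sec (v : V) : Fin d → R := fun l => (b.repr v l) • (1 : R)

lemma phi_sec (v : V) : phi (R := R) b (sec (R := R) b v) = v := by
  rw [phi_apply]
  conv_rhs => rw [← b.sum_repr v]
  refine Finset.sum_congr rfl fun l _ => ?_
  simp [sec, smul_assoc]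

lemma phi_surjective : Function.Surjective (phi (R := R) b) :=
  fun v => ⟨sec (R := R) b v, phi_sec b v⟩

variable (i₀ : Fin n)

/-- Index set of the `k`-basis of the kernel. -/
abbrev KIdx (n d : ℕ) (i₀ : Fin n) : Type := {i : Fin n // i ≠ i₀} × Fin d

/-- Coordinates on the kernel. -/
noncomputable def psi : LinearMap.ker (phi (R := R) b) →ₗ[k] (KIdx n d i₀ → k) where
  toFun x c := e.repr (x.1 c.2) c.1.1
  map_add' x y := by
    funext c
    simp
  map_smul' a x := by
    funext c
    simp

variable (he : e i₀ = 1)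

include he

lemma repr_one (c : Fin n) (hc : c ≠ i₀) : e.repr (1 : R) c = 0 := by
  rw [← he, e.repr_self, Finsupp.single_apply, if_neg (Ne.symm hc)]

lemma psi_injective : Function.Injective (psi e b i₀) := by
  rw [injective_iff_map_eq_zero]
  intro x hx
  have hc : ∀ l c, c ≠ i₀ → e.repr (x.1 l) c = 0 := fun l c hc =>
    congrFun hx (⟨c, hc⟩, l)
  have hl : ∀ l, x.1 l = e.repr (x.1 l) i₀ • (1 : R) := by
    intro l
    conv_lhs => rw [← e.sum_repr (x.1 l)]
    rw [Finset.sum_eq_single i₀]
    · rw [he]
    · intro c _ hne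
      rw [hc l c hne, zero_smul]
    · simp
  have h0 : phi (R := R) b x.1 = 0 := x.2
  rw [phi_apply] at h0
  have h1 : ∑ l, e.repr (x.1 l) i₀ • b l = 0 := by
    rw [← h0]
    refine Finset.sum_congr rfl fun l _ => ?_
    conv_rhs => rw [hl l]
    simp [smul_assoc]
  have h2 := Fintype.linearIndependent_iff.1 b.linearIndependent _ h1
  apply Subtype.ext
  funext l
  rw [hl l, h2 l, zero_smul]
  rfl

/-- The explicit basis vectors of the kernel. -/
noncomputable def wvec (c : KIdx n d i₀) : Fin d → R := fun l =>
  (if l = c.2 then e c.1.1 else 0) - (b.repr (e c.1.1 • b c.2) l) • (1 : R)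

omit he in
lemma wvec_mem (c : KIdx n d i₀) : wvec e b i₀ c ∈ LinearMap.ker (phi (R := R) b) := by
  rw [LinearMap.mem_ker]
  have h1 : wvec e b i₀ c = (fun l => if l = c.2 then e c.1.1 else 0) -
      sec (R := R) b (e c.1.1 • b c.2) := by
    funext l
    rfl
  rw [h1, map_sub, phi_sec, phi_apply, sub_eq_zero]
  rw [Finset.sum_eq_single c.2]
  · simp
  · intro l _ hne
    simp [hne]
  · simp

omit [IsScalarTower k R V] in
lemma psi_wvec (c a : KIdx n d i₀) :
    e.repr (wvec e b i₀ c a.2) a.1.1 = if a = c then 1 else 0 := by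
  have h1 : e.repr (1 : R) a.1.1 = 0 := repr_one e i₀ he _ a.1.2
  simp only [wvec, map_sub, map_smul, Finsupp.coe_sub, Pi.sub_apply, Finsupp.smul_apply, h1,
    smul_eq_mul, mul_zero, sub_zero]
  by_cases h2 : a.2 = c.2
  · rw [if_pos h2, e.repr_self, Finsupp.single_apply]
    by_cases h3 : c.1.1 = a.1.1
    · have : a = c := Prod.ext (Subtype.ext h3.symm) h2
      rw [if_pos h3, if_pos this]
    · have : a ≠ c := fun h => h3 (by rw [h])
      rw [if_neg h3, if_neg this]
  · have : a ≠ c := fun h => h2 (by rw [h])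
    rw [if_neg h2, if_neg this]
    simp

/-- The coordinate map is an equivalence. -/
noncomputable def psiEquiv : LinearMap.ker (phi (R := R) b) ≃ₗ[k] (KIdx n d i₀ → k) :=
  LinearEquiv.ofBijective (psi e b i₀) ⟨psi_injective e b i₀ he, by
    intro y
    refine ⟨∑ c, y c • (⟨wvec e b i₀ c, wvec_mem e b i₀ c⟩ : LinearMap.ker (phi (R := R) b)), ?_⟩
    funext a
    rw [map_sum]
    simp only [map_smul, Finset.sum_apply, Pi.smul_apply, smul_eq_mul]
    have : ∀ c, psi e b i₀ (⟨wvec e b i₀ c, wvec_mem e b i₀ c⟩ : LinearMap.ker (phi (R := R) b)) a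
        = if a = c then 1 else 0 := fun c => psi_wvec e b i₀ he c a
    simp only [this]
    simp⟩

/-- The basis of the kernel indexed by `Fin`. -/
noncomputable def kerBasis :
    Module.Basis (Fin (Fintype.card (KIdx n d i₀))) k (LinearMap.ker (phi (R := R) b)) :=
  (Module.Basis.ofEquivFun (psiEquiv e b i₀ he)).reindex (Fintype.equivFin _)

lemma kerBasis_repr (x : LinearMap.ker (phi (R := R) b)) (a : Fin (Fintype.card (KIdx n d i₀))) :
    (kerBasis e b i₀ he).repr x a =
      e.repr (x.1 ((Fintype.equivFin _).symm a).2) ((Fintype.equivFin _).symm a).1.1 := by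
  simp only [kerBasis, Module.Basis.repr_reindex_apply, Module.Basis.ofEquivFun_repr_apply]
  rfl

lemma kerBasis_apply (c : Fin (Fintype.card (KIdx n d i₀))) :
    ((kerBasis e b i₀ he c : LinearMap.ker (phi (R := R) b)) : Fin d → R) =
      wvec e b i₀ ((Fintype.equivFin _).symm c) := by
  have h : kerBasis e b i₀ he c =
      (⟨wvec e b i₀ ((Fintype.equivFin _).symm c), wvec_mem e b i₀ _⟩ :
        LinearMap.ker (phi (R := R) b)) := by
    apply (kerBasis e b i₀ he).repr.injective
    ext a
    rw [Module.Basis.repr_self, kerBasis_repr, Finsupp.single_apply]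
    have := psi_wvec e b i₀ he ((Fintype.equivFin _).symm c) ((Fintype.equivFin _).symm a)
    simp only at this ⊢
    rw [this]
    by_cases hac : c = a
    · simp [hac]
    · have : (Fintype.equivFin (KIdx n d i₀)).symm a ≠ (Fintype.equivFin _).symm c :=
        fun h => hac ((Fintype.equivFin _).symm.injective h).symm
      simp [hac, this]
  rw [h]

/-- Explicit matrices of the kernel module. -/
lemma rep_kerBasis (i : Fin n) (a c : Fin (Fintype.card (KIdx n d i₀))) :
    rep e (kerBasis e b i₀ he) i a c =
      (if ((Fintype.equivFin _).symm a).2 = ((Fintype.equivFin (KIdx n d i₀)).symm c).2 then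
        gam e i ((Fintype.equivFin _).symm c).1.1 ((Fintype.equivFin (KIdx n d i₀)).symm a).1.1
        else 0) -
      rep e b ((Fintype.equivFin (KIdx n d i₀)).symm c).1.1
        ((Fintype.equivFin (KIdx n d i₀)).symm a).2 ((Fintype.equivFin (KIdx n d i₀)).symm c).2 *
        (if i = ((Fintype.equivFin (KIdx n d i₀)).symm a).1.1 then 1 else 0) := by
  unfold rep
  rw [LinearMap.toMatrix_apply, kerBasis_repr]
  simp only [Algebra.lsmul_coe]
  change e.repr (e i • ((kerBasis e b i₀ he c : LinearMap.ker (phi (R := R) b)) : Fin d → R) _) _ = _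
  rw [kerBasis_apply]
  set c' := (Fintype.equivFin (KIdx n d i₀)).symm c
  set a' := (Fintype.equivFin (KIdx n d i₀)).symm a
  simp only [wvec, smul_eq_mul, mul_sub, mul_ite, mul_zero]
  rw [map_sub, Finsupp.sub_apply, LinearMap.toMatrix_apply]
  congr 1
  · by_cases h : a'.2 = c'.2
    · simp [h, gam]
    · simp [h]
  · have h1 : e i * ((b.repr (e c'.1.1 • b c'.2)) a'.2 • (1 : R)) =
        (b.repr (e c'.1.1 • b c'.2)) a'.2 • e i := by
      rw [mul_smul_comm, mul_one]
    rw [h1, map_smul, Finsupp.smul_apply, e.repr_self, Finsupp.single_apply]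
    simp [smul_eq_mul]

end Kernel

/-- `HasProjectiveDimensionLT` is an open condition in a family whose matrices have entries in a
function algebra `S`. -/
theorem open_pd {ι : Type*} (S : Subalgebra k (ι → k)) (i₀ : Fin n) (he : e i₀ = 1) (m : ℕ) :
    ∀ {d : ℕ} (V : ι → Type u) [∀ z, AddCommGroup (V z)] [∀ z, Module k (V z)]
      [∀ z, Module R (V z)] [∀ z, IsScalarTower k R (V z)]
      (b : ∀ z, Module.Basis (Fin d) k (V z))
      (_ : ∀ i a c, (fun z => rep e (b z) i a c) ∈ S) (z₀ : ι)
      (_ : HasProjectiveDimensionLT (ModuleCat.of R (V z₀)) (m + 1)),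
      ∃ f ∈ S, f z₀ ≠ 0 ∧
        ∀ z, f z ≠ 0 → HasProjectiveDimensionLT (ModuleCat.of R (V z)) (m + 1) := by
  induction m with
  | zero =>
    intro d V _ _ _ _ b hS z₀ h₀
    have hp : Projective (ModuleCat.of R (V z₀)) :=
      projective_iff_hasProjectiveDimensionLT_one.2 h₀
    obtain ⟨f, hf, hz, hopen⟩ := open_proj e S V b hS z₀ ((IsProjective.iff_projective (V z₀)).2 hp)
    refine ⟨f, hf, hz, fun z hfz => ?_⟩
    have := hopen z hfz
    exact projective_iff_hasProjectiveDimensionLT_one.1 ((IsProjective.iff_projective (V z)).1 this)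
  | succ m ih =>
    intro d V _ _ _ _ b hS z₀ h₀
    have hSconst : ∀ c : k, (fun _ : ι => c) ∈ S := fun c => S.algebraMap_mem c
    have hS' : ∀ i a c, (fun z => rep e (kerBasis e (b z) i₀ he) i a c) ∈ S := by
      intro i a c
      have : (fun z => rep e (kerBasis e (b z) i₀ he) i a c) = fun z =>
          (if ((Fintype.equivFin (KIdx n d i₀)).symm a).2 = ((Fintype.equivFin (KIdx n d i₀)).symm c).2 then
            gam e i ((Fintype.equivFin _).symm c).1.1 ((Fintype.equivFin (KIdx n d i₀)).symm a).1.1
            else 0) -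
          rep e (b z) ((Fintype.equivFin (KIdx n d i₀)).symm c).1.1
            ((Fintype.equivFin (KIdx n d i₀)).symm a).2 ((Fintype.equivFin (KIdx n d i₀)).symm c).2 *
            (if i = ((Fintype.equivFin (KIdx n d i₀)).symm a).1.1 then 1 else 0) := by
        funext z
        exact rep_kerBasis e (b z) i₀ he i a c
      rw [this]
      exact S.sub_mem (hSconst _) (S.mul_mem (hS _ _ _) (hSconst _))
    -- the short exact sequences
    have hse : ∀ z, ∃ T : ShortComplex (ModuleCat.{u} R), T.ShortExact ∧ Projective T.X₂ ∧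
        T.X₁ = ModuleCat.of R (LinearMap.ker (phi (R := R) (b z))) ∧
        T.X₃ = ModuleCat.of R (V z) := by
      intro z
      refine ⟨ShortComplex.mk
        (X₁ := ModuleCat.of R (LinearMap.ker (phi (R := R) (b z))))
        (X₂ := ModuleCat.of R (Fin d → R)) (X₃ := ModuleCat.of R (V z))
        (ModuleCat.ofHom (LinearMap.ker (phi (R := R) (b z))).subtype)
        (ModuleCat.ofHom (phi (R := R) (b z))) ?_, ?_, ?_, rfl, rfl⟩
      · ext x
        exact x.2
      · exact
          { exact := by
              rw [ShortComplex.ShortExact.moduleCat_exact_iff_function_exact]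
              intro x
              constructor
              · intro hx
                exact ⟨⟨x, hx⟩, rfl⟩
              · rintro ⟨y, rfl⟩
                exact y.2
            mono_f := (ModuleCat.mono_iff_injective _).mpr Subtype.val_injective
            epi_g := (ModuleCat.epi_iff_surjective _).mpr (phi_surjective (b z)) }
      · exact (IsProjective.iff_projective (Fin d → R)).1 inferInstance
    have hiff : ∀ z, HasProjectiveDimensionLT (ModuleCat.of R (V z)) (m + 2) ↔
        HasProjectiveDimensionLT (ModuleCat.of R (LinearMap.ker (phi (R := R) (b z)))) (m + 1) := by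
      intro z
      obtain ⟨T, hT, hP, h1, h3⟩ := hse z
      have := hT.hasProjectiveDimensionLT_X₃_iff m hP
      rwa [h1, h3] at this
    obtain ⟨f, hf, hz, hopen⟩ := ih (fun z => LinearMap.ker (phi (R := R) (b z)))
      (fun z => kerBasis e (b z) i₀ he) hS' z₀ ((hiff z₀).1 h₀)
    exact ⟨f, hf, hz, fun z hfz => (hiff z).2 (hopen z hfz)⟩

end

/-- A basis of a nontrivial finite-dimensional algebra containing `1`. -/
lemma exists_basis_one (k : Type*) [Field k] (R : Type u) [Ring R] [Nontrivial R] [Algebra k R]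
    [FiniteDimensional k R] :
    ∃ (n : ℕ) (e : Module.Basis (Fin n) k R) (i₀ : Fin n), e i₀ = 1 := by
  classical
  have hs : LinearIndepOn k id ({(1 : R)} : Set R) :=
    LinearIndepOn.singleton (by simp)
  let B0 := Module.Basis.extend hs
  haveI := FiniteDimensional.fintypeBasisIndex B0
  let σ := Fintype.equivFin (hs.extend (Set.subset_univ _))
  have hmem : (1 : R) ∈ hs.extend (Set.subset_univ _) :=
    hs.subset_extend (Set.subset_univ _) (Set.mem_singleton _)
  refine ⟨_, B0.reindex σ, σ ⟨1, hmem⟩, ?_⟩
  rw [Module.Basis.reindex_apply, Equiv.symm_apply_apply]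
  exact Module.Basis.extend_apply_self hs _

/-- **Bounded finitistic dimension.** For a finite-dimensional algebra over a field and every
`B`, the projective dimensions of modules generated by at most `B` elements are bounded, as far
as they are finite. -/
theorem pd_bounded {k : Type*} [Field k] {R : Type u} [Ring R] [Algebra k R]
    [FiniteDimensional k R] (B : ℕ) :
    ∃ N : ℕ, ∀ V : ModuleCat.{u} R, (∃ f : (Fin B → R) →ₗ[R] V, Function.Surjective f) →
      (∃ m, HasProjectiveDimensionLT V m) → HasProjectiveDimensionLT V N := by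
  classical
  by_cases hR : Nontrivial R
  swap
  · rw [not_nontrivial_iff_subsingleton] at hR
    refine ⟨0, fun V _ _ => ?_⟩
    have : Subsingleton V := Module.subsingleton R V
    exact (ModuleCat.isZero_of_subsingleton V).hasProjectiveDimensionLT_zero
  obtain ⟨n, e, i₀, he⟩ := exists_basis_one k R
  by_contra hcon
  have hex : ∀ N : ℕ, ∃ V : ModuleCat.{u} R, (∃ f : (Fin B → R) →ₗ[R] V, Function.Surjective f) ∧
      (∃ m, HasProjectiveDimensionLT V m) ∧ ¬ HasProjectiveDimensionLT V N := by
    intro N
    by_contra h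
    apply hcon
    refine ⟨N, fun V h1 h2 => ?_⟩
    by_contra h3
    exact h ⟨V, h1, h2, h3⟩
  choose V hgen hfin hnot using hex
  -- the `k`-structure on each module
  letI instK : ∀ z, Module k (V z) := fun z => Module.compHom (V z) (algebraMap k R)
  have instT : ∀ z, IsScalarTower k R (V z) := fun z =>
    IsScalarTower.of_algebraMap_smul (fun _ _ => rfl)
  -- finite dimension
  have hfd : ∀ z, Module.Finite k (V z) ∧ Module.finrank k (V z) ≤ B * Module.finrank k R := by
    intro z
    obtain ⟨f, hf⟩ := hgen z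
    have := instT z
    let fk : (Fin B → R) →ₗ[k] V z := f.restrictScalars k
    have hfk : Function.Surjective fk := hf
    have h1 : Module.Finite k (V z) := Module.Finite.of_surjective fk hfk
    refine ⟨h1, ?_⟩
    have h2 : Module.finrank k (V z) ≤ Module.finrank k (Fin B → R) :=
      LinearMap.finrank_le_finrank_of_surjective hfk
    have h3 : Module.finrank k (Fin B → R) = B * Module.finrank k R := by
      rw [Module.finrank_pi_fintype]
      simp
    omega
  -- pigeonhole on the dimension
  let dim : ℕ → Fin (B * Module.finrank k R + 1) := fun z =>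
    ⟨Module.finrank k (V z), Nat.lt_succ_of_le (hfd z).2⟩
  obtain ⟨d0, hd0⟩ := Finite.exists_infinite_fiber dim
  let ι' := {z : ℕ // dim z = d0}
  have hunb : ∀ m₀ : ℕ, ∃ z : ι', m₀ < z.1 := by
    intro m₀
    obtain ⟨b, hb, hlt⟩ := (Set.infinite_coe_iff.1 hd0).exists_gt m₀
    exact ⟨⟨b, hb⟩, hlt⟩
  have hdim : ∀ z : ι', Module.finrank k (V z.1) = d0.1 := fun z => by
    have := congrArg Fin.val z.2
    simpa [dim] using this
  have hb : ∀ z : ι', Nonempty (Module.Basis (Fin d0.1) k (V z.1)) := fun z => by
    have := (hfd z.1).1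
    exact ⟨Module.finBasisOfFinrankEq k (V z.1) (hdim z)⟩
  let b : ∀ z : ι', Module.Basis (Fin d0.1) k (V z.1) := fun z => (hb z).some
  haveI : ∀ z : ι', IsScalarTower k R (V z.1) := fun z => instT z.1
  -- the function algebra of the family
  let E : Fin n × Fin d0.1 × Fin d0.1 → (ι' → k) := fun t z => rep e (b z) t.1 t.2.1 t.2.2
  let S : Subalgebra k (ι' → k) := Algebra.adjoin k (Set.range E)
  have hSfin : (Set.range E).Finite := Set.finite_range E
  have hft : Algebra.FiniteType k S := by
    refine (Subalgebra.fg_iff_finiteType S).1 ?_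
    exact ⟨hSfin.toFinset, by simp [S]⟩
  have hnoeth : IsNoetherianRing S := Algebra.FiniteType.isNoetherianRing k S
  have hS : ∀ i a c, (fun z => rep e (b z) i a c) ∈ S := fun i a c =>
    Algebra.subset_adjoin ⟨(i, a, c), rfl⟩
  -- the ascending chain of ideals
  let I : ℕ → Ideal S := fun m =>
    { carrier := {f | ∀ z : ι', (f : ι' → k) z ≠ 0 → HasProjectiveDimensionLT (V z.1) m}
      add_mem' := by
        intro x y hx hy z hz
        by_cases h : (x : ι' → k) z = 0
        · refine hy z fun h' => hz ?_
          change (x : ι' → k) z + (y : ι' → k) z = 0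
          rw [h, h', add_zero]
        · exact hx z h
      zero_mem' := by
        intro z hz
        exact absurd rfl hz
      smul_mem' := by
        intro c x hx z hz
        refine hx z fun h' => hz ?_
        change (c : ι' → k) z * (x : ι' → k) z = 0
        rw [h', mul_zero] }
  have hImem : ∀ m (f : S), f ∈ I m ↔
      ∀ z : ι', (f : ι' → k) z ≠ 0 → HasProjectiveDimensionLT (V z.1) m := fun m f => Iff.rfl
  have hmono : Monotone I := by
    intro m m' hmm f hf
    rw [hImem] at hf ⊢
    intro z hz
    have := hf z hz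
    exact hasProjectiveDimensionLT_of_ge (V z.1) m m' hmm
  obtain ⟨m₀, hm₀⟩ := monotone_stabilizes_iff_noetherian.2 (inferInstance : IsNoetherian S S)
    ⟨I, hmono⟩
  have hall : ∀ z : ι', HasProjectiveDimensionLT (V z.1) m₀ := by
    intro z
    obtain ⟨m₁, hm₁⟩ := hfin z.1
    have h2 : HasProjectiveDimensionLT (V z.1) (max m₁ m₀ + 1) :=
      hasProjectiveDimensionLT_of_ge (V z.1) m₁ _ (by omega)
    obtain ⟨f, hfS, hfz, hopen⟩ := open_pd e S i₀ he (max m₁ m₀)
      (fun z : ι' => (V z.1 : Type u)) b hS z h2
    have hmem : (⟨f, hfS⟩ : S) ∈ I (max m₁ m₀ + 1) := by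
      rw [hImem]
      exact fun z' hz' => hopen z' hz'
    have hstab : I m₀ = I (max m₁ m₀ + 1) := hm₀ _ (by omega)
    rw [← hstab, hImem] at hmem
    exact hmem z hfz
  obtain ⟨z, hz⟩ := hunb m₀
  have h3 := hall z
  exact hnot z.1 (hasProjectiveDimensionLT_of_ge (V z.1) m₀ z.1 hz.le)

end Vale.Agent.Lib.P176
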