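import Vale.Agent.Lib.P176.Defs

namespace Vale.Agent.Lib.P176

open Module

universe u

section

variable {k : Type*} [Field k] {R : Type u} [Ring R] [Algebra k R] {n : ℕ}
  (e : Basis (Fin n) k R)

/-- Structure constants. -/
noncomputable def gam (i j l : Fin n) : k := e.repr (e i * e j) l

theorem mul_eq_sum_gam (i j : Fin n) : e i * e j = ∑ l, gam e i j l • e l :=
  (e.sum_repr (e i * e j)).symm

theorem repr_mul_left (i j h t : Fin n) :
    e.repr ((e i * e j) * e h) t = ∑ l, gam e i j l * gam e l h t := by
  conv_lhs => rw [mul_eq_sum_gam e i j]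
  rw [Finset.sum_mul]
  simp only [smul_mul_assoc, map_sum, map_smul, Finsupp.coe_finsetSum, Finset.sum_apply,
    Finsupp.smul_apply, smul_eq_mul, gam]

theorem repr_mul_right (i j h t : Fin n) :
    e.repr (e i * (e j * e h)) t = ∑ l, gam e j h l * gam e i l t := by
  conv_lhs => rw [mul_eq_sum_gam e j h]
  rw [Finset.mul_sum]
  simp only [mul_smul_comm, map_sum, map_smul, Finsupp.coe_finsetSum, Finset.sum_apply,
    Finsupp.smul_apply, smul_eq_mul, gam]

theorem isStruct_gam (a0 : Fin n) (he : e a0 = 1) : IsStruct (gam e) a0 := by
  refine ⟨?_, ?_, ?_⟩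
  · intro i j h t
    rw [← repr_mul_left, ← repr_mul_right, mul_assoc]
  · intro j l
    simp [gam, he, Finsupp.single_apply]
  · intro i l
    simp [gam, he, Finsupp.single_apply]

variable {m : Type} [Fintype m] [DecidableEq m]
  {V : Type u} [AddCommGroup V] [Module k V] [Module R V] [IsScalarTower k R V]
  (b : Basis m k V)

/-- Matrices of the action of the basis of `R`. -/
noncomputable def rep (i : Fin n) : Matrix m m k :=
  LinearMap.toMatrix b b (Algebra.lsmul k k V (e i))

theorem rep_apply (i : Fin n) (x y : m) : rep e b i x y = b.repr (e i • b y) x := by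
  simp [rep, LinearMap.toMatrix_apply]

theorem smul_basis_eq (i : Fin n) (y : m) : e i • b y = ∑ x, rep e b i x y • b x := by
  conv_lhs => rw [← b.sum_repr (e i • b y)]
  simp [rep_apply]

theorem isRep_rep (a0 : Fin n) (he : e a0 = 1) : IsRep (gam e) a0 (rep e b) := by
  refine ⟨?_, ?_⟩
  · intro i j
    have h : Algebra.lsmul k k V (e i) ∘ₗ Algebra.lsmul k k V (e j)
        = ∑ l, gam e i j l • Algebra.lsmul k k V (e l) := by
      ext v
      simp only [LinearMap.comp_apply, Algebra.lsmul_coe, LinearMap.sum_apply,
        LinearMap.smul_apply]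
      rw [← mul_smul, mul_eq_sum_gam e i j, Finset.sum_smul]
      simp only [smul_assoc]
    simp only [rep]
    rw [← LinearMap.toMatrix_comp, h, map_sum]
    simp only [map_smul]
  · simp [rep, he]

/-- The free module element with coordinates `t`. -/
noncomputable def Phi (t : Fin n × m → k) : m → R := fun d => ∑ a, t (a, d) • e a

theorem repr_Phi (t : Fin n × m → k) (d : m) (l : Fin n) : e.repr (Phi e t d) l = t (l, d) := by
  simp [Phi, Finsupp.single_apply]

theorem Phi_F (i : Fin n) (t : Fin n × m → k) :
    Phi e ((F (gam e) i).mulVec t) = e i • Phi e t := by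
  funext d
  apply e.repr.injective
  ext l
  rw [repr_Phi]
  have h : (e i • Phi e t) d = ∑ a, t (a, d) • (e i * e a) := by
    simp [Phi, Finset.mul_sum]
  rw [h]
  simp only [Matrix.mulVec, dotProduct, F, Fintype.sum_prod_type]
  simp only [map_sum, map_smul, Finsupp.coe_finsetSum, Finset.sum_apply, Finsupp.smul_apply,
    smul_eq_mul]
  refine Finset.sum_congr rfl fun a _ => ?_
  rw [Finset.sum_eq_single d]
  · simp [gam, mul_comm]
  · intro d' _ hd
    simp [hd]
  · simp

/-- The multiplication map on coordinates. -/
theorem mu_Phi (t : Fin n × m → k) :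
    ∑ d, Phi e t d • b d = ∑ x, ((mu (rep e b)).mulVec t x) • b x := by
  simp only [Phi, Finset.sum_smul, smul_assoc]
  simp only [smul_basis_eq e b, Finset.smul_sum, smul_smul]
  simp only [Matrix.mulVec, dotProduct, mu, Fintype.sum_prod_type]
  rw [Finset.sum_congr rfl fun d _ => Finset.sum_comm]
  rw [Finset.sum_comm]
  refine Finset.sum_congr rfl fun x _ => ?_
  rw [Finset.sum_smul]
  rw [Finset.sum_comm]
  refine Finset.sum_congr rfl fun d _ => ?_
  rw [Finset.sum_smul]
  refine Finset.sum_congr rfl fun a _ => ?_
  rw [mul_comm]

theorem Phi_mul (S : Matrix (Fin n × m) m k) (C : Matrix m m k) (c : m) :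
    Phi e (fun u => (S * C) u c) = ∑ x, C x c • Phi e (fun u => S u x) := by
  funext d
  simp only [Phi, Finset.sum_apply, Pi.smul_apply, Matrix.mul_apply, Finset.sum_smul,
    Finset.smul_sum, smul_smul]
  rw [Finset.sum_comm]
  refine Finset.sum_congr rfl fun x _ => ?_
  refine Finset.sum_congr rfl fun a _ => ?_
  rw [mul_comm]

/-- The multiplication map from the free module. -/
noncomputable def muRb : (m → R) →ₗ[R] V where
  toFun x := ∑ j, x j • b j
  map_add' x y := by simp [add_smul, Finset.sum_add_distrib]
  map_smul' r x := by simp [mul_smul, Finset.smul_sum]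

theorem muRb_apply (x : m → R) : muRb b x = ∑ j, x j • b j := rfl

theorem muRb_surjective : Function.Surjective (muRb (R := R) b) := by
  intro v
  refine ⟨fun j => b.repr v j • (1 : R), ?_⟩
  rw [muRb_apply]
  conv_rhs => rw [← b.sum_repr v]
  refine Finset.sum_congr rfl fun j _ => ?_
  rw [smul_assoc, one_smul]

/-- Projectivity in coordinates. -/
theorem projective_iff_hasSec (a0 : Fin n) (_he : e a0 = 1) :
    Module.Projective R V ↔ HasSec (gam e) a0 (rep e b) := by
  constructor
  · intro hP
    obtain ⟨h, hh⟩ := Module.projective_lifting_property (muRb (R := R) b) LinearMap.id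
      (muRb_surjective b)
    have hh' : ∀ v, ∑ d, h v d • b d = v := fun v => by
      have := LinearMap.congr_fun hh v
      simpa [muRb_apply] using this
    let S : Matrix (Fin n × m) m k := fun u c => e.repr (h (b c) u.2) u.1
    have hcol : ∀ c, Phi e (fun u => S u c) = h (b c) := by
      intro c
      funext d
      apply e.repr.injective
      ext l
      rw [repr_Phi]
    refine ⟨S, ?_, ?_⟩
    · have key : ∀ c, ∑ x, (mu (rep e b) * S) x c • b x = b c := by
        intro c
        have h1 := mu_Phi e b (fun u => S u c)
        rw [hcol, hh'] at h1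
        rw [h1]
        rfl
      ext x c
      have h2 := congrArg (fun v => b.repr v x) (key c)
      simp only [map_sum, map_smul, Finsupp.coe_finsetSum, Finset.sum_apply, Finsupp.smul_apply,
        Basis.repr_self_apply, smul_eq_mul, mul_ite, mul_one, mul_zero, Finset.sum_ite_eq',
        Finset.mem_univ, if_true] at h2
      rw [h2, Matrix.one_apply]
      simp [eq_comm]
    · intro i
      ext u c
      obtain ⟨l, d⟩ := u
      have h1 : (F (m := m) (gam e) i).mulVec (fun u => S u c) (l, d)
          = e.repr ((e i • Phi e (fun u => S u c)) d) l := by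
        rw [← Phi_F, repr_Phi]
      have h2 : (S * rep e b i) (l, d) c
          = e.repr (Phi e (fun u => (S * rep e b i) u c) d) l := by
        rw [repr_Phi]
      change (F (m := m) (gam e) i).mulVec (fun u => S u c) (l, d) = _
      rw [h1, h2, Phi_mul, hcol]
      have h3 : e i • h (b c) = ∑ x, rep e b i x c • Phi e (fun u => S u x) := by
        rw [← map_smul, smul_basis_eq e b, map_sum]
        refine Finset.sum_congr rfl fun x _ => ?_
        rw [hcol, LinearMap.map_smul_of_tower]
      rw [h3]
  · rintro ⟨S, h1, h2⟩
    let sk : V →ₗ[k] (m → R) := b.constr k (fun c => Phi e (fun u => S u c))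
    have hsk : ∀ c, sk (b c) = Phi e (fun u => S u c) := fun c => by
      simp [sk]
    have comm : ∀ i v, sk (e i • v) = e i • sk v := by
      intro i v
      have : sk ∘ₗ Algebra.lsmul k k V (e i) = Algebra.lsmul k k (m → R) (e i) ∘ₗ sk := by
        apply b.ext
        intro c
        simp only [LinearMap.comp_apply, Algebra.lsmul_coe]
        rw [hsk, ← Phi_F, smul_basis_eq e b, map_sum]
        have h3 : (F (gam e) i).mulVec (fun u => S u c) = fun u => (S * rep e b i) u c := by
          funext u
          have := congrFun (congrFun (h2 i) u) c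
          rw [← this]
          rfl
        rw [h3, Phi_mul]
        refine Finset.sum_congr rfl fun x _ => ?_
        rw [map_smul, hsk]
      exact LinearMap.congr_fun this v
    have commR : ∀ (r : R) v, sk (r • v) = r • sk v := by
      intro r v
      conv_lhs => rw [← e.sum_repr r]
      conv_rhs => rw [← e.sum_repr r]
      rw [Finset.sum_smul, Finset.sum_smul, map_sum]
      refine Finset.sum_congr rfl fun i _ => ?_
      rw [smul_assoc, map_smul, comm, smul_assoc]
    let s : V →ₗ[R] (m → R) :=
      { toFun := sk
        map_add' := sk.map_add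
        map_smul' := fun r v => by simpa using commR r v }
    have hs : (muRb (R := R) b) ∘ₗ s = LinearMap.id := by
      have : ((muRb (R := R) b).restrictScalars k) ∘ₗ sk = LinearMap.id := by
        apply b.ext
        intro c
        simp only [LinearMap.comp_apply, LinearMap.restrictScalars_apply, LinearMap.id_apply,
          muRb_apply]
        rw [hsk, mu_Phi]
        have h3 : (mu (rep e b)).mulVec (fun u => S u c) = fun x => (1 : Matrix m m k) x c := by
          funext x
          have := congrFun (congrFun h1 x) c
          rw [← this]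
          rfl
        rw [h3]
        simp [Matrix.one_apply]
      ext v
      · exact LinearMap.congr_fun this v
    exact Module.Projective.of_split s (muRb (R := R) b) hs

end

end Vale.Agent.Lib.P176
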