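import Vale.Agent.Lib.P176.Bridge1

namespace Vale.Agent.Lib.P176

open Module

universe u

section

variable {k : Type*} [Field k] (R : Type u) [Ring R] [Algebra k R] {n : ℕ}
  {m : Type} [Fintype m] [DecidableEq m]
  {V : Type u} [AddCommGroup V] [Module k V] [Module R V] [IsScalarTower k R V]
  (b : Basis m k V)

/-- The surjection from the free module. -/
noncomputable def muR : (m → R) →ₗ[R] V where
  toFun x := ∑ j, x j • b j
  map_add' x y := by simp [add_smul, Finset.sum_add_distrib]
  map_smul' r x := by simp [mul_smul, Finset.smul_sum]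

theorem muR_apply (x : m → R) : muR R b x = ∑ j, x j • b j := rfl

theorem one_scal_smul (c : k) (y : V) : (c • (1 : R)) • y = c • y := by
  rw [smul_assoc, one_smul]

theorem muR_surjective : Function.Surjective (muR R b) := by
  intro v
  refine ⟨fun j => b.repr v j • (1 : R), ?_⟩
  rw [muR_apply]
  simp only [one_scal_smul]
  exact b.sum_repr v

variable {R} (e : Basis (Fin n) k R)

theorem rep_apply_br2 (c : Fin n) (b' d : m) : rep e b c b' d = b.repr (e c • b d) b' := by
  simp [rep, LinearMap.toMatrix_apply]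

variable (a0 : Fin n)

/-- The canonical generators of the kernel. -/
noncomputable def wv (v : Idx a0 m) : m → R :=
  fun b' => (if b' = v.2 then e v.1.1 else 0) - (rep e b v.1.1 b' v.2) • (1 : R)

theorem wv_mem (v : Idx a0 m) : wv b e a0 v ∈ LinearMap.ker (muR R b) := by
  rw [LinearMap.mem_ker, muR_apply]
  simp only [wv, sub_smul, Finset.sum_sub_distrib, ite_smul, zero_smul, one_scal_smul]
  rw [Finset.sum_ite_eq' Finset.univ v.2]
  simp only [Finset.mem_univ, if_true, rep_apply_br2, b.sum_repr, sub_self]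

/-- The coordinates on the kernel. -/
noncomputable def coordL : LinearMap.ker (muR R b) →ₗ[k] (Idx a0 m → k) where
  toFun x v := e.repr ((x : m → R) v.2) v.1.1
  map_add' x y := by
    funext v
    simp
  map_smul' r x := by
    funext v
    simp

theorem coordL_apply (x : LinearMap.ker (muR R b)) (v : Idx a0 m) :
    coordL b e a0 x v = e.repr ((x : m → R) v.2) v.1.1 := rfl

theorem coordL_wv (he : e a0 = 1) (v u : Idx a0 m) :
    coordL b e a0 ⟨wv b e a0 v, wv_mem b e a0 v⟩ u = if u = v then 1 else 0 := by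
  rw [coordL_apply]
  have hone : ∀ a : Fin n, a ≠ a0 → e.repr (1 : R) a = 0 := by
    intro a ha
    rw [← he, Basis.repr_self, Finsupp.single_apply, if_neg (Ne.symm ha)]
  simp only [wv, map_sub, map_smul, Finsupp.sub_apply, Finsupp.smul_apply, hone u.1.1 u.1.2,
    smul_eq_mul, mul_zero, sub_zero]
  by_cases h2 : u.2 = v.2
  · rw [if_pos h2, Basis.repr_self, Finsupp.single_apply]
    by_cases h1 : v.1.1 = u.1.1
    · have huv : u = v := Prod.ext (Subtype.ext h1.symm) h2
      rw [if_pos h1, if_pos huv]
    · have huv : u ≠ v := fun h => h1 (by rw [h])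
      rw [if_neg h1, if_neg huv]
  · have huv : u ≠ v := fun h => h2 (by rw [h])
    rw [if_neg h2, if_neg huv]
    simp

theorem coordL_injective (he : e a0 = 1) : Function.Injective (coordL b e a0) := by
  rw [injective_iff_map_eq_zero]
  intro x hx
  have hx0 : ∀ (a : Fin n) (b' : m), a ≠ a0 → e.repr ((x : m → R) b') a = 0 := by
    intro a b' ha
    have := congrFun hx (⟨a, ha⟩, b')
    simpa [coordL_apply] using this
  have hform : ∀ b' : m, (x : m → R) b' = e.repr ((x : m → R) b') a0 • (1 : R) := by
    intro b'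
    conv_lhs => rw [← e.sum_repr ((x : m → R) b')]
    rw [Finset.sum_eq_single a0]
    · rw [he]
    · intro a _ ha
      rw [hx0 a b' ha, zero_smul]
    · simp
  have hmu : ∑ j, e.repr ((x : m → R) j) a0 • b j = 0 := by
    have h := (LinearMap.mem_ker.1 x.2)
    rw [muR_apply] at h
    rw [← h]
    refine Finset.sum_congr rfl fun j _ => ?_
    conv_rhs => rw [hform j]
    rw [one_scal_smul]
  have hzero := Fintype.linearIndependent_iff.1 b.linearIndependent _ hmu
  apply Subtype.ext
  funext b'
  rw [hform b', hzero b', zero_smul]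
  rfl

theorem coordL_surjective (he : e a0 = 1) : Function.Surjective (coordL b e a0) := by
  intro g
  refine ⟨∑ v, g v • (⟨wv b e a0 v, wv_mem b e a0 v⟩ : LinearMap.ker (muR R b)), ?_⟩
  funext u
  rw [map_sum, Finset.sum_apply]
  simp only [map_smul, Pi.smul_apply, coordL_wv b e a0 he, smul_eq_mul, mul_ite, mul_one, mul_zero]
  rw [Finset.sum_ite_eq Finset.univ u]
  simp

/-- The matrix entries of the canonical syzygy. -/
theorem syz_apply {B : Type*} [CommRing B] (γ : Fin n → Fin n → Fin n → B)
    (A : Fin n → Matrix m m B) (i : Fin n) (u v : Idx a0 m) :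
    syz γ a0 A i u v =
      (if u.2 = v.2 then γ i v.1.1 u.1.1 else 0) - γ i a0 u.1.1 * A v.1.1 u.2 v.2 := by
  have h1 : ∀ t : Fin n × m, (pr a0 * F γ i : Matrix (Idx a0 m) (Fin n × m) B) u t =
      F γ i (u.1.1, u.2) t := by
    intro t
    have e0 : (pr a0 * F γ i : Matrix (Idx a0 m) (Fin n × m) B) u t =
        ∑ s, pr a0 u s * F γ i s t := rfl
    rw [e0, Finset.sum_eq_single (u.1.1, u.2)]
    · simp [pr]
    · intro s _ hs
      have hne : ¬ (u.1.1 = s.1 ∧ u.2 = s.2) := fun h => hs (Prod.ext h.1.symm h.2.symm)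
      simp [pr, hne]
    · simp
  have h0 : syz γ a0 A i u v =
      ∑ t, (pr a0 * F γ i : Matrix (Idx a0 m) (Fin n × m) B) u t * inj a0 A t v := rfl
  rw [h0]
  simp only [h1]
  rw [Fintype.sum_prod_type]
  have h2 : ∀ a' : Fin n, ∑ y : m, F γ i (u.1.1, u.2) (a', y) * inj a0 A (a', y) v =
      γ i a' u.1.1 * inj a0 A (a', u.2) v := by
    intro a'
    rw [Finset.sum_eq_single u.2]
    · simp [F]
    · intro y _ hy
      simp [F, hy]
    · simp
  simp only [h2]
  simp only [inj, mul_sub, Finset.sum_sub_distrib]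
  congr 1
  · by_cases h : u.2 = v.2
    · rw [Finset.sum_eq_single v.1.1]
      · simp [h]
      · intro a' _ ha'
        simp [ha']
      · simp
    · simp [h]
  · rw [Finset.sum_eq_single a0]
    · simp
    · intro a' _ ha'
      simp [ha']
    · simp

/-- A basis of the kernel whose matrices are the canonical syzygy. -/
theorem exists_basis_ker (a0 : Fin n) (he : e a0 = 1) :
    ∃ w : Basis (Idx a0 m) k (LinearMap.ker (muR R b)),
      rep e w = syz (gam e) a0 (rep e b) := by
  let ε : LinearMap.ker (muR R b) ≃ₗ[k] (Idx a0 m → k) :=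
    LinearEquiv.ofBijective (coordL b e a0) ⟨coordL_injective b e a0 he, coordL_surjective b e a0 he⟩
  let w : Basis (Idx a0 m) k (LinearMap.ker (muR R b)) := Basis.ofEquivFun ε
  have hrepr : ∀ x u, w.repr x u = coordL b e a0 x u := by
    intro x u
    rfl
  have hw : ∀ v, w v = ⟨wv b e a0 v, wv_mem b e a0 v⟩ := by
    intro v
    apply w.repr.injective
    ext u
    rw [Basis.repr_self, hrepr, coordL_wv b e a0 he, Finsupp.single_apply]
    by_cases h : u = v
    · rw [if_pos h, if_pos h.symm]
    · rw [if_neg h, if_neg (Ne.symm h)]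
  refine ⟨w, ?_⟩
  funext i
  ext u v
  rw [syz_apply]
  have h1 : rep e w i u v = e.repr (e i * wv b e a0 v u.2) u.1.1 := by
    simp only [rep, LinearMap.toMatrix_apply]
    rw [hrepr, coordL_apply, hw]
    rfl
  rw [h1]
  have h3 : e i * wv b e a0 v u.2 =
      (if u.2 = v.2 then e i * e v.1.1 else 0) - (rep e b v.1.1 u.2 v.2) • (e i * e a0) := by
    simp only [wv, mul_sub, mul_ite, mul_zero, mul_smul_comm, mul_one, he]
  rw [h3, map_sub, map_smul, Finsupp.sub_apply, Finsupp.smul_apply, smul_eq_mul]
  have h4 : e.repr (e i * e a0) u.1.1 = gam e i a0 u.1.1 := rfl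
  rw [h4, mul_comm (rep e b v.1.1 u.2 v.2)]
  congr 1
  by_cases h : u.2 = v.2
  · rw [if_pos h, if_pos h]
    rfl
  · rw [if_neg h, if_neg h]
    simp

end

end Vale.Agent.Lib.P176
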