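import Vale.Agent.Lib.P176.Bridge2

namespace Vale.Agent.Lib.P176

open Module CategoryTheory Abelian

universe u

/-- Projective dimension in coordinates. -/
theorem pd_iff {k : Type*} [Field k] {R : Type u} [Ring R] [Algebra k R] {n : ℕ}
    (e : Basis (Fin n) k R) (a0 : Fin n) (he : e a0 = 1) :
    ∀ (t : ℕ) (m : Type) [Fintype m] [DecidableEq m]
      (V : Type u) [AddCommGroup V] [Module k V] [Module R V] [IsScalarTower k R V]
      (b : Basis m k V),
      HasProjectiveDimensionLE (ModuleCat.of R V) t ↔ PDm (gam e) a0 t m (rep e b) := by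
  intro t
  induction t with
  | zero =>
    intro m _ _ V _ _ _ _ b
    have h1 : HasProjectiveDimensionLE (ModuleCat.of R V) 0 ↔ Projective (ModuleCat.of R V) :=
      (projective_iff_hasProjectiveDimensionLE_zero _).symm
    rw [h1, ← IsProjective.iff_projective (R := R) V]
    exact projective_iff_hasSec e b a0 he
  | succ t ih =>
    intro m _ _ V _ _ _ _ b
    obtain ⟨w, hw⟩ := exists_basis_ker (R := R) (b := b) e a0 he
    have hS := LinearMap.shortExact_shortComplexKer (muR_surjective R b)
    have hproj : Projective (LinearMap.shortComplexKer (muR R b)).X₂ := by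
      show Projective (ModuleCat.of R (m → R))
      rw [← IsProjective.iff_projective (R := R) (m → R)]
      exact Module.Projective.of_free
    have h2 := hS.hasProjectiveDimensionLT_X₃_iff t hproj
    have h3 := ih (Idx a0 m) (LinearMap.ker (muR R b)) w
    rw [hw] at h3
    show HasProjectiveDimensionLT (ModuleCat.of R V) (t + 2) ↔
      PDm (gam e) a0 t (Idx a0 m) (syz (gam e) a0 (rep e b))
    rw [← h3]
    exact h2

end Vale.Agent.Lib.P176
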