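import Mathlib

namespace Vale.Agent.Lib.P176

section Defs

variable {n : ℕ} {B : Type*} [CommRing B]

/-- Structure constants of an associative algebra with basis indexed by `Fin n` whose basis vector
`a0` is the unit. -/
structure IsStruct (γ : Fin n → Fin n → Fin n → B) (a0 : Fin n) : Prop where
  assoc : ∀ i j h t, ∑ l, γ i j l * γ l h t = ∑ l, γ j h l * γ i l t
  left : ∀ j l, γ a0 j l = if j = l then 1 else 0
  right : ∀ i l, γ i a0 l = if i = l then 1 else 0

variable {m : Type} [Fintype m] [DecidableEq m]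

/-- A representation in matrices over `B`. -/
structure IsRep (γ : Fin n → Fin n → Fin n → B) (a0 : Fin n) (A : Fin n → Matrix m m B) : Prop where
  mul : ∀ i j, A i * A j = ∑ l, γ i j l • A l
  one : A a0 = 1

/-- Index set of the canonical basis of the syzygy. -/
abbrev Idx (a0 : Fin n) (m : Type) : Type := {a : Fin n // a ≠ a0} × m

/-- The action of the `i`-th basis vector on the free module `R ⊗ M`. -/
def F (γ : Fin n → Fin n → Fin n → B) (i : Fin n) : Matrix (Fin n × m) (Fin n × m) B :=
  fun u v => if v.2 = u.2 then γ i v.1 u.1 else 0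

/-- The multiplication `R ⊗ M → M`. -/
def mu (A : Fin n → Matrix m m B) : Matrix m (Fin n × m) B := fun b v => A v.1 b v.2

/-- The section `m ↦ 1 ⊗ m`, linear over the base only. -/
def sec (a0 : Fin n) : Matrix (Fin n × m) m B := fun u b => if u.1 = a0 ∧ u.2 = b then 1 else 0

/-- Projection to the coordinates with first index different from `a0`. -/
def pr (a0 : Fin n) : Matrix (Idx a0 m) (Fin n × m) B :=
  fun u v => if u.1.1 = v.1 ∧ u.2 = v.2 then 1 else 0

/-- The basis `e_a ⊗ m_b - 1 ⊗ (e_a m_b)` of the kernel of `mu`. -/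
def inj (a0 : Fin n) (A : Fin n → Matrix m m B) : Matrix (Fin n × m) (Idx a0 m) B :=
  fun u v => (if u.1 = v.1.1 ∧ u.2 = v.2 then 1 else 0) - (if u.1 = a0 then A v.1.1 u.2 v.2 else 0)

/-- Matrices of the canonical syzygy. -/
def syz (γ : Fin n → Fin n → Fin n → B) (a0 : Fin n) (A : Fin n → Matrix m m B) :
    Fin n → Matrix (Idx a0 m) (Idx a0 m) B :=
  fun i => pr a0 * F γ i * inj a0 A

/-- The multiplication map has a section commuting with the action: the module is projective. -/
def HasSec (γ : Fin n → Fin n → Fin n → B) (a0 : Fin n) (C : Fin n → Matrix m m B) : Prop :=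
  ∃ S : Matrix (Fin n × m) m B, mu C * S = 1 ∧ ∀ i, F γ i * S = S * C i

/-- Every cocycle from `C` to `C'` is a coboundary, in coordinates: `Ext¹ = 0`. -/
def Cocy {m' : Type} [Fintype m'] (γ : Fin n → Fin n → Fin n → B)
    (C' : Fin n → Matrix m' m' B) (C : Fin n → Matrix m m B) : Prop :=
  ∀ f : Fin n → Matrix m' m B, (∀ i j, C' i * f j + f i * C j = ∑ l, γ i j l • f l) →
    ∃ X : Matrix m' m B, ∀ i, f i = C' i * X - X * C i

/-- Projective dimension at most `t`, in coordinates: the `t`-th canonical syzygy has a section. -/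
def PDm (γ : Fin n → Fin n → Fin n → B) (a0 : Fin n) :
    ℕ → ∀ (m : Type) [Fintype m] [DecidableEq m], (Fin n → Matrix m m B) → Prop
  | 0, _, _, _, C => HasSec γ a0 C
  | t + 1, m, _, _, C => PDm γ a0 t (Idx a0 m) (syz γ a0 C)

end Defs

section Sp

variable {n : ℕ} {k B : Type*} [Field k] [CommRing B] [Algebra k B] {m : Type}

/-- Specialization of a family of matrices at a point. -/
def sp (π : B →ₐ[k] k) (A : Fin n → Matrix m m B) : Fin n → Matrix m m k :=
  fun i => (A i).map π

end Sp

end Vale.Agent.Lib.P176
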