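import Vale.Agent.Lib.P176.Main

namespace Vale.Agent.Lib.P176

open Module CategoryTheory Abelian

universe u

variable {R : Type u} [Ring R]

/-- `K` is an `s`-th syzygy of `M`: there are short exact sequences `0 → K_{i+1} → P_i → K_i → 0`
with `P_i` projective, `K_0 ≅ M`, `K_s = K`. -/
def IsSyz : ℕ → ModuleCat.{u} R → ModuleCat.{u} R → Prop
  | 0, K, M => Nonempty (K ≃ₗ[R] M)
  | s + 1, K, M => ∃ (K' P : ModuleCat.{u} R) (i : K →ₗ[R] P) (p : P →ₗ[R] K'),
      Module.Projective R P ∧ Function.Injective i ∧ Function.Surjective p ∧ Function.Exact i p ∧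
        IsSyz s K' M

theorem shortExact_of_linear {K P K' : ModuleCat.{u} R} (i : K →ₗ[R] P) (p : P →ₗ[R] K')
    (hi : Function.Injective i) (hp : Function.Surjective p) (hex : Function.Exact i p) :
    ∃ S : ShortComplex (ModuleCat.{u} R), S.ShortExact ∧ S.X₁ = K ∧ S.X₂ = P ∧ S.X₃ = K' := by
  have hc : ModuleCat.ofHom i ≫ ModuleCat.ofHom p = 0 := by
    ext x
    exact hex.apply_apply_eq_zero x
  refine ⟨ShortComplex.mk (ModuleCat.ofHom i) (ModuleCat.ofHom p) hc, ?_, rfl, rfl, rfl⟩
  have hm : Mono (ModuleCat.ofHom i) := (ModuleCat.mono_iff_injective _).2 hi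
  have he : Epi (ModuleCat.ofHom p) := (ModuleCat.epi_iff_surjective _).2 hp
  exact { exact := (ShortComplex.ShortExact.moduleCat_exact_iff_function_exact _).2 hex }

theorem pd_down {K P K' : ModuleCat.{u} R} (i : K →ₗ[R] P) (p : P →ₗ[R] K')
    (hP : Module.Projective R P) (hi : Function.Injective i) (hp : Function.Surjective p)
    (hex : Function.Exact i p) (t : ℕ) (h : HasProjectiveDimensionLE K' (t + 1)) :
    HasProjectiveDimensionLE K t := by
  obtain ⟨S, hS, rfl, rfl, rfl⟩ := shortExact_of_linear i p hi hp hex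
  have h2 : Projective S.X₂ := (_root_.IsProjective.iff_projective (R := R) S.X₂).mp hP
  exact (hS.hasProjectiveDimensionLT_X₃_iff t h2).1 h

theorem pd_up {K P K' : ModuleCat.{u} R} (i : K →ₗ[R] P) (p : P →ₗ[R] K')
    (hP : Module.Projective R P) (hi : Function.Injective i) (hp : Function.Surjective p)
    (hex : Function.Exact i p) (t : ℕ) (h : HasProjectiveDimensionLE K t) :
    HasProjectiveDimensionLE K' (t + 1) := by
  obtain ⟨S, hS, rfl, rfl, rfl⟩ := shortExact_of_linear i p hi hp hex
  have h2 : Projective S.X₂ := (_root_.IsProjective.iff_projective (R := R) S.X₂).mp hP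
  exact (hS.hasProjectiveDimensionLT_X₃_iff t h2).2 h

theorem pd_mid {K P K' : ModuleCat.{u} R} (i : K →ₗ[R] P) (p : P →ₗ[R] K')
    (hi : Function.Injective i) (hp : Function.Surjective p)
    (hex : Function.Exact i p) (n : ℕ) (h1 : HasProjectiveDimensionLT K n)
    (h3 : HasProjectiveDimensionLT K' n) : HasProjectiveDimensionLT P n := by
  obtain ⟨S, hS, rfl, rfl, rfl⟩ := shortExact_of_linear i p hi hp hex
  exact hS.hasProjectiveDimensionLT_X₂ n h1 h3

theorem syz_up : ∀ (s : ℕ) (K M : ModuleCat.{u} R), IsSyz s K M → ∀ t,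
    HasProjectiveDimensionLE K t → HasProjectiveDimensionLE M (t + s) := by
  intro s
  induction s with
  | zero =>
    rintro K M ⟨e⟩ t h
    exact hasProjectiveDimensionLT_of_iso e.toModuleIso _
  | succ s ih =>
    rintro K M ⟨K', P, i, p, hP, hi, hp, hex, hs⟩ t h
    have h2 := ih K' M hs (t + 1) (pd_up i p hP hi hp hex t h)
    have e : t + (s + 1) = t + 1 + s := by omega
    rw [e]
    exact h2

theorem syz_down : ∀ (s : ℕ) (K M : ModuleCat.{u} R), IsSyz s K M → ∀ t,
    HasProjectiveDimensionLE M t → ∃ t', HasProjectiveDimensionLE K t' := by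
  intro s
  induction s with
  | zero =>
    rintro K M ⟨e⟩ t h
    exact ⟨t, hasProjectiveDimensionLT_of_iso e.symm.toModuleIso _⟩
  | succ s ih =>
    rintro K M ⟨K', P, i, p, hP, hi, hp, hex, hs⟩ t h
    obtain ⟨t', ht'⟩ := ih K' M hs t h
    refine ⟨t', pd_down i p hP hi hp hex t' ?_⟩
    exact hasProjectiveDimensionLT_of_ge K' (t' + 1) _ (by omega)

theorem pi_pd : ∀ (l : ℕ) (K' : Fin l → ModuleCat.{u} R) (n : ℕ),
    (∀ j, HasProjectiveDimensionLT (K' j) n) →
    HasProjectiveDimensionLT (ModuleCat.of R ((j : Fin l) → K' j)) n := by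
  intro l
  induction l with
  | zero =>
    intro K' n _
    have hs : Subsingleton ((j : Fin 0) → K' j) := inferInstance
    have hz : Limits.IsZero (ModuleCat.of R ((j : Fin 0) → K' j)) :=
      ModuleCat.isZero_of_subsingleton _
    have h0 := hz.hasProjectiveDimensionLT_zero
    exact hasProjectiveDimensionLT_of_ge _ 0 n (by omega)
  | succ l ih =>
    intro K' n h
    let A : ModuleCat.{u} R := ModuleCat.of R ((j : Fin l) → K' j.succ)
    let Bb : ModuleCat.{u} R := ModuleCat.of R ((j : Fin (l + 1)) → K' j)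
    let i : A →ₗ[R] Bb :=
      { toFun := fun x => Fin.cons (α := fun j => K' j) 0 x
        map_add' := by
          intro x y
          funext j
          refine Fin.cases ?_ (fun j => ?_) j
          · exact (add_zero (0 : K' 0)).symm
          · rfl
        map_smul' := by
          intro r x
          funext j
          refine Fin.cases ?_ (fun j => ?_) j
          · exact (smul_zero r).symm
          · rfl }
    let p : Bb →ₗ[R] K' 0 := LinearMap.proj (0 : Fin (l + 1))
    have hi : Function.Injective i := by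
      intro x y hxy
      funext j
      have := congrFun hxy j.succ
      simpa [i] using this
    have hp : Function.Surjective p := by
      intro y
      exact ⟨(Fin.cons (α := fun j => K' j) y 0 : (j : Fin (l + 1)) → K' j), rfl⟩
    have hex : Function.Exact i p := by
      intro y
      constructor
      · intro hy
        refine ⟨fun j => y j.succ, ?_⟩
        funext j
        refine Fin.cases ?_ (fun j => ?_) j
        · exact hy.symm
        · rfl
      · rintro ⟨x, rfl⟩
        rfl
    exact pd_mid (K := A) (P := Bb) (K' := K' 0) i p hi hp hex n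
      (ih (fun j => K' j.succ) n (fun j => h j.succ)) (h 0)

/-- The finitistic dimension conjecture for algebras whose modules of finite projective dimension
have an `s`-th syzygy which is a direct sum of modules with at most `G` generators. -/
theorem findim_of_syz {k : Type*} [Field k] {R : Type u} [Ring R] [Algebra k R]
    [FiniteDimensional k R] (s G : ℕ)
    (h : ∀ M : ModuleCat.{u} R, Module.Finite R M → (∃ t : ℕ, HasProjectiveDimensionLE M t) →
      ∃ K : ModuleCat.{u} R, IsSyz s K M ∧ ∃ (l : ℕ) (K' : Fin l → ModuleCat.{u} R),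
        (∀ j, ∃ f : (Fin G → R) →ₗ[R] K' j, Function.Surjective f) ∧
        Nonempty (K ≃ₗ[R] ((j : Fin l) → K' j))) :
    ∃ N : ℕ, ∀ M : ModuleCat.{u} R, Module.Finite R M →
      (∃ t : ℕ, HasProjectiveDimensionLE M t) → HasProjectiveDimensionLE M N := by
  classical
  obtain ⟨N0, hN0⟩ := bounded_pd (k := k) (R := R) G
  refine ⟨N0 + s, fun M hfin hpd => ?_⟩
  obtain ⟨K, hsyz, l, K', hgen, ⟨e⟩⟩ := h M hfin hpd
  obtain ⟨t, ht⟩ := hpd
  obtain ⟨t', ht'⟩ := syz_down s K M hsyz t ht
  have hPi : HasProjectiveDimensionLE (ModuleCat.of R ((j : Fin l) → K' j)) t' :=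
    hasProjectiveDimensionLT_of_iso e.toModuleIso _
  have hj : ∀ j, HasProjectiveDimensionLE (K' j) N0 := by
    intro j
    refine hN0 (K' j) (hgen j) ⟨t', ?_⟩
    let r : Retract (K' j) (ModuleCat.of R ((j : Fin l) → K' j)) :=
      { i := ModuleCat.ofHom (LinearMap.single R (fun j => K' j) j)
        r := ModuleCat.ofHom (LinearMap.proj j)
        retract := by
          ext x
          simp }
    exact r.hasProjectiveDimensionLT _
  have hPi2 : HasProjectiveDimensionLE (ModuleCat.of R ((j : Fin l) → K' j)) N0 :=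
    pi_pd l K' (N0 + 1) hj
  have hK : HasProjectiveDimensionLE K N0 := hasProjectiveDimensionLT_of_iso e.symm.toModuleIso _
  exact syz_up s K M hsyz N0 hK

end Vale.Agent.Lib.P176
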