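import Vale.Agent.Lib.P176.PD
import Vale.Agent.Lib.P176.Bridge3

namespace Vale.Agent.Lib.P176

open Module CategoryTheory Abelian

universe u

/-- A finite-dimensional nontrivial algebra has a basis containing the unit. -/
theorem exists_basis_one (k : Type*) [Field k] (R : Type u) [Ring R] [Nontrivial R] [Algebra k R]
    [FiniteDimensional k R] :
    ∃ (n : ℕ) (e : Basis (Fin n) k R) (a0 : Fin n), e a0 = 1 := by
  classical
  have h1 : LinearIndepOn k id ({1} : Set R) := by
    simpa using LinearIndepOn.singleton (R := k) (v := (id : R → R)) (i := (1 : R)) (by simp)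
  let b := Basis.extend h1
  have hmem : (1 : R) ∈ h1.extend (Set.subset_univ _) :=
    h1.subset_extend (Set.subset_univ _) rfl
  haveI : Finite (h1.extend (Set.subset_univ _)) := Module.Finite.finite_basis b
  letI : Fintype (h1.extend (Set.subset_univ _)) := Fintype.ofFinite _
  let eqv := Fintype.equivFin (h1.extend (Set.subset_univ _))
  refine ⟨_, b.reindex eqv, eqv ⟨1, hmem⟩, ?_⟩
  rw [Basis.reindex_apply, Equiv.symm_apply_apply]
  exact Basis.extend_apply_self h1 ⟨1, hmem⟩

/-- Modules with a bounded number of generators and finite projective dimension have bounded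
projective dimension, over any finite-dimensional algebra over any field. -/
theorem bounded_pd {k : Type*} [Field k] {R : Type u} [Ring R] [Algebra k R]
    [FiniteDimensional k R] (G : ℕ) :
    ∃ N : ℕ, ∀ M : ModuleCat.{u} R, (∃ f : (Fin G → R) →ₗ[R] M, Function.Surjective f) →
      (∃ t : ℕ, HasProjectiveDimensionLE M t) → HasProjectiveDimensionLE M N := by
  classical
  by_cases hR : Subsingleton R
  · refine ⟨0, fun M _ _ => ?_⟩
    haveI : Subsingleton M := Module.subsingleton R M
    have hz : Limits.IsZero M := ModuleCat.isZero_of_subsingleton M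
    haveI := hz.hasProjectiveDimensionLT_zero
    exact hasProjectiveDimensionLT_of_ge M 0 1 (by omega)
  haveI : Nontrivial R := not_subsingleton_iff_nontrivial.mp hR
  obtain ⟨n, e, a0, he⟩ := exists_basis_one k R
  have hγ : IsStruct (gam e) a0 := isStruct_gam e a0 he
  have hN : ∀ d : ℕ, ∃ N : ℕ, ∀ C : Fin n → Matrix (Fin d) (Fin d) k, IsRep (gam e) a0 C →
      (∃ t, PDm (gam e) a0 t (Fin d) C) → ∃ t, t ≤ N ∧ PDm (gam e) a0 t (Fin d) C := by
    intro d
    let ι := {C : Fin n → Matrix (Fin d) (Fin d) k //
      IsRep (gam e) a0 C ∧ ∃ t, PDm (gam e) a0 t (Fin d) C}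
    obtain ⟨N, hN⟩ := noeth hγ (fun z : ι => z.1) (fun z => z.2.1) (fun z => z.2.2)
    exact ⟨N, fun C h1 h2 => hN ⟨C, h1, h2⟩⟩
  choose Nd hNd using hN
  refine ⟨(Finset.range (G * Module.finrank k R + 1)).sup Nd, fun M hgen ht => ?_⟩
  letI instK : Module k M := Module.compHom M (algebraMap k R)
  haveI instT : IsScalarTower k R M := IsScalarTower.of_algebraMap_smul (fun _ _ => rfl)
  obtain ⟨f, hf⟩ := hgen
  let fk : (Fin G → R) →ₗ[k] M := f.restrictScalars k
  have hfk : Function.Surjective fk := hf
  haveI h1 : Module.Finite k M := Module.Finite.of_surjective fk hfk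
  have h2 : Module.finrank k M ≤ Module.finrank k (Fin G → R) :=
    LinearMap.finrank_le_finrank_of_surjective hfk
  have h3 : Module.finrank k (Fin G → R) = G * Module.finrank k R := by
    rw [Module.finrank_pi_fintype]
    simp
  let b : Basis (Fin (Module.finrank k M)) k M := Module.finBasisOfFinrankEq k M rfl
  obtain ⟨t, ht⟩ := ht
  have hPD : PDm (gam e) a0 t (Fin (Module.finrank k M)) (rep e b) :=
    (pd_iff e a0 he t _ M b).1 ht
  obtain ⟨s, hs, hs'⟩ := hNd _ _ (isRep_rep e b a0 he) ⟨t, hPD⟩
  have hsM : HasProjectiveDimensionLE (ModuleCat.of R M) s := (pd_iff e a0 he s _ M b).2 hs'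
  have hle : Nd (Module.finrank k M) ≤ (Finset.range (G * Module.finrank k R + 1)).sup Nd :=
    Finset.le_sup (Finset.mem_range.2 (by omega))
  have hM : HasProjectiveDimensionLE M s := hsM
  exact hasProjectiveDimensionLT_of_ge M (s + 1) _ (by omega)

end Vale.Agent.Lib.P176
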