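import Vale.Agent.Lib.P176.Defs
import Vale.Agent.Lib.P195.Rig.GenInv

namespace Vale.Agent.Lib.P176

open Vale.Agent.Lib.P195.Rig

/-- Specializing a `B`-linear map of finite free modules along a point. -/
lemma exists_spec {k B : Type*} [Field k] [CommRing B] [Algebra k B] (π' : B →ₐ[k] k)
    {u w : Type*} [Fintype u] [Fintype w] [DecidableEq u]
    (H : (u → B) →ₗ[B] (w → B)) :
    ∃ H' : (u → k) →ₗ[k] (w → k), ∀ z v, π' (H z v) = H' (fun i => π' (z i)) v := by
  classical
  refine ⟨Matrix.toLin' ((LinearMap.toMatrix' H).map π'), fun z v => ?_⟩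
  have h : H z v = (LinearMap.toMatrix' H).mulVec z v := by
    rw [LinearMap.toMatrix'_mulVec]
  rw [h, Matrix.toLin'_apply]
  simp only [Matrix.mulVec, dotProduct, map_sum, map_mul, Matrix.map_apply]

/-- Exactness in the middle of a specialized complex of finite free modules is an open condition. -/
theorem open_exact_abs {k B : Type*} [Field k] [CommRing B] [Algebra k B] (π : B →ₐ[k] k)
    {a b c : Type*} [Fintype a] [Fintype b] [Fintype c]
    [DecidableEq a] [DecidableEq b] [DecidableEq c]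
    (D0 : (a → B) →ₗ[B] (b → B)) (D1 : (b → B) →ₗ[B] (c → B))
    (D0k : (a → k) →ₗ[k] (b → k)) (D1k : (b → k) →ₗ[k] (c → k))
    (h : ∀ x, D1 (D0 x) = 0)
    (h0 : ∀ x u, π (D0 x u) = D0k (fun i => π (x i)) u)
    (h1 : ∀ x u, π (D1 x u) = D1k (fun i => π (x i)) u)
    (hex : ∀ x, D1k x = 0 → ∃ y, D0k y = x) :
    ∃ f : B, π f ≠ 0 ∧ ∀ (π' : B →ₐ[k] k)
      (D0' : (a → k) →ₗ[k] (b → k)) (D1' : (b → k) →ₗ[k] (c → k)),
      (∀ x u, π' (D0 x u) = D0' (fun i => π' (x i)) u) →
      (∀ x u, π' (D1 x u) = D1' (fun i => π' (x i)) u) →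
      π' f ≠ 0 → ∀ x, D1' x = 0 → ∃ y, D0' y = x := by
  classical
  obtain ⟨g0, hg0⟩ := exists_ginv D0k
  obtain ⟨g1, hg1⟩ := exists_ginv D1k
  have hq : ∀ x, D0k (g0 (x - g1 (D1k x))) + g1 (D1k x) = x := by
    intro x
    have hy : D1k (x - g1 (D1k x)) = 0 := by
      rw [map_sub, hg1, sub_self]
    obtain ⟨z, hz⟩ := hex _ hy
    rw [← hz, hg0, hz]
    abel
  obtain ⟨H1, hH1⟩ := exists_lift π (g0 ∘ₗ (LinearMap.id - g1 ∘ₗ D1k))
  obtain ⟨H2, hH2⟩ := exists_lift π g1
  let E : (b → B) →ₗ[B] (b → B) := D0 ∘ₗ H1 + H2 ∘ₗ D1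
  have hE : ∀ x u, π (E x u) = π (x u) := by
    intro x u
    have e1 : E x u = D0 (H1 x) u + H2 (D1 x) u := rfl
    rw [e1, map_add, h0, hH2]
    have e2 : (fun i => π (H1 x i)) = g0 ((fun i => π (x i)) - g1 (D1k fun i => π (x i))) := by
      funext i
      rw [hH1]
      rfl
    have e3 : (fun i => π (D1 x i)) = D1k (fun i => π (x i)) := by
      funext i
      rw [h1]
    rw [e2, e3, ← Pi.add_apply, hq]
  set M := LinearMap.toMatrix' E with hM
  have hone : M.map π = 1 := by
    ext u v
    rw [Matrix.map_apply, hM, LinearMap.toMatrix'_apply, hE]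
    by_cases huv : u = v
    · subst huv
      simp
    · simp [huv, Matrix.one_apply_ne]
  refine ⟨M.det, ?_, ?_⟩
  · have hd1 : π M.det = 1 := by
      rw [π.map_det]
      have : π.mapMatrix M = 1 := hone
      rw [this, Matrix.det_one]
    rw [hd1]
    exact one_ne_zero
  · intro π' D0' D1' h0' h1' hf x hx
    obtain ⟨H1', hH1'⟩ := exists_spec π' H1
    obtain ⟨H2', hH2'⟩ := exists_spec π' H2
    let E' : (b → k) →ₗ[k] (b → k) := D0' ∘ₗ H1' + H2' ∘ₗ D1'
    have hE' : ∀ z u, π' (E z u) = E' (fun i => π' (z i)) u := by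
      intro z u
      have e1 : E z u = D0 (H1 z) u + H2 (D1 z) u := rfl
      have e2 : E' (fun i => π' (z i)) u =
          D0' (H1' (fun i => π' (z i))) u + H2' (D1' (fun i => π' (z i))) u := rfl
      rw [e1, e2, map_add, h0', hH2']
      have e3 : (fun i => π' (H1 z i)) = H1' (fun i => π' (z i)) := by
        funext i
        rw [hH1']
      have e4 : (fun i => π' (D1 z i)) = D1' (fun i => π' (z i)) := by
        funext i
        rw [h1']
      rw [e3, e4]
    have hD : ∀ y, D1' (D0' y) = 0 := by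
      intro y
      funext u
      set z : a → B := fun i => algebraMap k B (y i) with hz
      have hzy : (fun i => π' (z i)) = y := by
        funext i
        simp [hz]
      have e1 : π' (D1 (D0 z) u) = D1' (fun i => π' (D0 z i)) u := h1' _ _
      have e2 : (fun i => π' (D0 z i)) = D0' y := by
        funext i
        rw [h0', hzy]
      rw [e2, h, Pi.zero_apply, map_zero] at e1
      exact e1.symm
    have hMat : LinearMap.toMatrix' E' = M.map π' := by
      ext u v
      rw [LinearMap.toMatrix'_apply, Matrix.map_apply, hM, LinearMap.toMatrix'_apply, hE']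
      have e : (fun i => π' ((Pi.single v 1 : b → B) i)) = (Pi.single v 1 : b → k) := by
        funext i
        by_cases hi : i = v
        · subst hi
          simp
        · simp [hi]
      rw [e]
    have hdet : (LinearMap.toMatrix' E').det ≠ 0 := by
      rw [hMat]
      have : π' M.det = (M.map π').det := by
        rw [π'.map_det]
        rfl
      rw [← this]
      exact hf
    have hinj : ∀ y, E' y = 0 → y = 0 := by
      intro y hy
      apply Matrix.eq_zero_of_mulVec_eq_zero hdet
      rw [LinearMap.toMatrix'_mulVec, hy]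
    have hmaps : ∀ y ∈ LinearMap.ker D1', E' y ∈ LinearMap.ker D1' := by
      intro y hy
      rw [LinearMap.mem_ker] at hy ⊢
      have e : E' y = D0' (H1' y) + H2' (D1' y) := rfl
      rw [e, map_add, hD, hy, map_zero, map_zero, add_zero]
    let Er : LinearMap.ker D1' →ₗ[k] LinearMap.ker D1' := E'.restrict hmaps
    have hErinj : Function.Injective Er := by
      rw [injective_iff_map_eq_zero]
      intro y hy
      have e : E' y = 0 := congrArg Subtype.val hy
      exact Subtype.ext (hinj _ e)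
    have hErsurj : Function.Surjective Er := LinearMap.injective_iff_surjective.mp hErinj
    obtain ⟨y, hy⟩ := hErsurj ⟨x, LinearMap.mem_ker.mpr hx⟩
    have hyx : E' y = x := congrArg Subtype.val hy
    refine ⟨H1' y, ?_⟩
    have e : E' y = D0' (H1' y) + H2' (D1' y) := rfl
    have hy0 : D1' (y : b → k) = 0 := LinearMap.mem_ker.mp y.2
    rw [e, hy0, map_zero, add_zero] at hyx
    exact hyx

section Rect

variable {R : Type*} [CommRing R] {n : ℕ} {m m' : Type}

/-- Reading a vector indexed by pairs as a rectangular matrix. -/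
def cur (x : m' × m → R) : Matrix m' m R := Matrix.of fun p q => x (p, q)

lemma cur_add (x y : m' × m → R) : cur (x + y) = cur x + cur y := rfl

lemma cur_smul (r : R) (x : m' × m → R) : cur (r • x) = r • cur x := rfl

/-- The `i`-th matrix of a family written as a vector. -/
def sl (f : Fin n × (m' × m) → R) (i : Fin n) : Matrix m' m R :=
  cur (fun p => f (i, p))

lemma sl_add (f h : Fin n × (m' × m) → R) (i : Fin n) :
    sl (f + h) i = sl f i + sl h i := rfl

lemma sl_smul (r : R) (f : Fin n × (m' × m) → R) (i : Fin n) :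
    sl (r • f) i = r • sl f i := rfl

variable [Fintype m] [Fintype m'] [DecidableEq m] [DecidableEq m']

/-- The coboundary `X ↦ (A' i X - X A i)`. -/
def D0f (A' : Fin n → Matrix m' m' R) (A : Fin n → Matrix m m R) :
    (m' × m → R) →ₗ[R] (Fin n × (m' × m) → R) where
  toFun x u := (A' u.1 * cur x - cur x * A u.1) u.2.1 u.2.2
  map_add' x y := by
    funext u
    have : A' u.1 * cur (x + y) - cur (x + y) * A u.1
        = (A' u.1 * cur x - cur x * A u.1) + (A' u.1 * cur y - cur y * A u.1) := by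
      rw [cur_add, Matrix.mul_add, Matrix.add_mul]; abel
    simp only [this, Matrix.add_apply, Pi.add_apply]
  map_smul' r x := by
    funext u
    have : A' u.1 * cur (r • x) - cur (r • x) * A u.1
        = r • (A' u.1 * cur x - cur x * A u.1) := by
      rw [cur_smul, Matrix.mul_smul, Matrix.smul_mul, smul_sub]
    simp only [this, Matrix.smul_apply, Pi.smul_apply, RingHom.id_apply]

lemma D0f_apply (A' : Fin n → Matrix m' m' R) (A : Fin n → Matrix m m R) (x : m' × m → R)
    (u : Fin n × (m' × m)) :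
    D0f A' A x u = (A' u.1 * cur x - cur x * A u.1) u.2.1 u.2.2 := rfl

lemma sl_D0f (A' : Fin n → Matrix m' m' R) (A : Fin n → Matrix m m R) (x : m' × m → R)
    (i : Fin n) : sl (D0f A' A x) i = A' i * cur x - cur x * A i := by
  ext p q; rfl

/-- The coboundary `f ↦ (A' i f j + f i A j - ∑ γ f l)`. -/
def D1f (γ : Fin n → Fin n → Fin n → R) (A' : Fin n → Matrix m' m' R)
    (A : Fin n → Matrix m m R) :
    (Fin n × (m' × m) → R) →ₗ[R] (Fin n × Fin n × (m' × m) → R) where
  toFun f u :=
    (A' u.1 * sl f u.2.1 + sl f u.1 * A u.2.1 - ∑ l, γ u.1 u.2.1 l • sl f l) u.2.2.1 u.2.2.2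
  map_add' f h := by
    funext u
    have : A' u.1 * sl (f + h) u.2.1 + sl (f + h) u.1 * A u.2.1
          - ∑ l, γ u.1 u.2.1 l • sl (f + h) l
        = (A' u.1 * sl f u.2.1 + sl f u.1 * A u.2.1 - ∑ l, γ u.1 u.2.1 l • sl f l)
          + (A' u.1 * sl h u.2.1 + sl h u.1 * A u.2.1 - ∑ l, γ u.1 u.2.1 l • sl h l) := by
      simp only [sl_add, Matrix.mul_add, Matrix.add_mul, smul_add, Finset.sum_add_distrib]
      abel
    simp only [this, Matrix.add_apply, Pi.add_apply]
  map_smul' r f := by
    funext u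
    have : A' u.1 * sl (r • f) u.2.1 + sl (r • f) u.1 * A u.2.1
          - ∑ l, γ u.1 u.2.1 l • sl (r • f) l
        = r • (A' u.1 * sl f u.2.1 + sl f u.1 * A u.2.1 - ∑ l, γ u.1 u.2.1 l • sl f l) := by
      simp only [sl_smul, Matrix.mul_smul, Matrix.smul_mul, smul_sub, smul_add, Finset.smul_sum]
      congr 1
      exact Finset.sum_congr rfl fun l _ => smul_comm _ _ _
    simp only [this, Matrix.smul_apply, Pi.smul_apply, RingHom.id_apply]

lemma D1f_apply (γ : Fin n → Fin n → Fin n → R) (A' : Fin n → Matrix m' m' R)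
    (A : Fin n → Matrix m m R)
    (f : Fin n × (m' × m) → R) (u : Fin n × Fin n × (m' × m)) :
    D1f γ A' A f u
      = (A' u.1 * sl f u.2.1 + sl f u.1 * A u.2.1 - ∑ l, γ u.1 u.2.1 l • sl f l) u.2.2.1 u.2.2.2 :=
  rfl

lemma D1f_D0f (γ : Fin n → Fin n → Fin n → R) (A' : Fin n → Matrix m' m' R)
    (A : Fin n → Matrix m m R)
    (hA' : ∀ i j, A' i * A' j = ∑ l, γ i j l • A' l) (hA : ∀ i j, A i * A j = ∑ l, γ i j l • A l)
    (x : m' × m → R) : D1f γ A' A (D0f A' A x) = 0 := by
  funext u
  rw [D1f_apply]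
  have : A' u.1 * sl (D0f A' A x) u.2.1 + sl (D0f A' A x) u.1 * A u.2.1
        - ∑ l, γ u.1 u.2.1 l • sl (D0f A' A x) l = 0 := by
    simp only [sl_D0f]
    have e1 : A' u.1 * (A' u.2.1 * cur x - cur x * A u.2.1)
        + (A' u.1 * cur x - cur x * A u.1) * A u.2.1
        = (A' u.1 * A' u.2.1) * cur x - cur x * (A u.1 * A u.2.1) := by
      simp only [Matrix.mul_sub, Matrix.sub_mul, Matrix.mul_assoc]
      abel
    rw [e1, hA', hA, Matrix.sum_mul, Matrix.mul_sum]
    simp only [Matrix.smul_mul, Matrix.mul_smul, smul_sub, Finset.sum_sub_distrib]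
    abel
  rw [this]
  rfl

end Rect

section Spec

variable {k B : Type*} [Field k] [CommRing B] [Algebra k B] {n : ℕ}
  {m m' : Type} [Fintype m] [DecidableEq m] [Fintype m'] [DecidableEq m']

lemma pi_mul_apply {u v w : Type} [Fintype v] (π : B →ₐ[k] k) (M : Matrix u v B) (N : Matrix v w B)
    (p : u) (q : w) : π ((M * N) p q) = (M.map π * N.map π) p q := by
  simp [Matrix.mul_apply, map_sum, map_mul]

lemma spec_D0 (π : B →ₐ[k] k) (A' : Fin n → Matrix m' m' B) (A : Fin n → Matrix m m B)
    (x : m' × m → B) (u : Fin n × (m' × m)) :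
    π (D0f A' A x u) = D0f (sp π A') (sp π A) (fun i => π (x i)) u := by
  rw [D0f_apply, D0f_apply, Matrix.sub_apply, Matrix.sub_apply, map_sub, pi_mul_apply, pi_mul_apply]
  have e1 : (cur x).map π = cur (fun i => π (x i)) := by ext p q; rfl
  rw [e1]
  rfl

lemma spec_D1 (γ : Fin n → Fin n → Fin n → k) (π : B →ₐ[k] k) (A' : Fin n → Matrix m' m' B)
    (A : Fin n → Matrix m m B)
    (f : Fin n × (m' × m) → B) (u : Fin n × Fin n × (m' × m)) :
    π (D1f (fun i j l => algebraMap k B (γ i j l)) A' A f u)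
      = D1f γ (sp π A') (sp π A) (fun i => π (f i)) u := by
  rw [D1f_apply, D1f_apply, Matrix.sub_apply, Matrix.sub_apply, Matrix.add_apply, Matrix.add_apply,
    map_sub, map_add, pi_mul_apply, pi_mul_apply]
  have e1 : ∀ i, (sl f i).map π = sl (fun i => π (f i)) i := by intro i; ext p q; rfl
  rw [e1, e1]
  congr 1
  simp only [Matrix.sum_apply, map_sum, Matrix.smul_apply, smul_eq_mul, map_mul]
  refine Finset.sum_congr rfl fun l _ => ?_
  rw [AlgHom.commutes]
  congr 1

end Spec

/-- Vanishing of `Ext¹` between two families of representations is an open condition. -/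
theorem open_cocy {n : ℕ} {k B : Type*} [Field k] [CommRing B] [Algebra k B]
    (γ : Fin n → Fin n → Fin n → k) {a0 : Fin n}
    {m m' : Type} [Fintype m] [DecidableEq m] [Fintype m'] [DecidableEq m']
    (A' : Fin n → Matrix m' m' B) (A : Fin n → Matrix m m B)
    (hA' : IsRep (fun i j l => algebraMap k B (γ i j l)) a0 A')
    (hA : IsRep (fun i j l => algebraMap k B (γ i j l)) a0 A)
    (π : B →ₐ[k] k) (h : Cocy γ (sp π A') (sp π A)) :
    ∃ f : B, π f ≠ 0 ∧ ∀ π' : B →ₐ[k] k, π' f ≠ 0 → Cocy γ (sp π' A') (sp π' A) := by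
  classical
  set γB : Fin n → Fin n → Fin n → B := fun i j l => algebraMap k B (γ i j l) with hγB
  have hex : ∀ x, D1f γ (sp π A') (sp π A) x = 0 → ∃ y, D0f (sp π A') (sp π A) y = x := by
    intro x hx
    obtain ⟨X, hX⟩ := h (sl x) (by
      intro i j
      have hz : (sp π A' i * sl x j + sl x i * sp π A j - ∑ l, γ i j l • sl x l) = 0 := by
        ext p q
        have := congrFun hx (i, j, p, q)
        rw [D1f_apply] at this
        exact this
      exact sub_eq_zero.mp hz)
    refine ⟨fun p => X p.1 p.2, ?_⟩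
    funext u
    have e := congrFun (congrFun (hX u.1) u.2.1) u.2.2
    have e3 : cur (fun p : m' × m => X p.1 p.2) = X := by ext p q; rfl
    rw [D0f_apply, e3]
    exact e.symm
  obtain ⟨f, hf, hopen⟩ := open_exact_abs π (D0f A' A) (D1f γB A' A)
    (D0f (sp π A') (sp π A)) (D1f γ (sp π A') (sp π A))
    (D1f_D0f γB A' A hA'.mul hA.mul)
    (spec_D0 π A' A) (spec_D1 γ π A' A) hex
  refine ⟨f, hf, fun π' hf' g hg => ?_⟩
  have hx : D1f γ (sp π' A') (sp π' A) (fun u => g u.1 u.2.1 u.2.2) = 0 := by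
    funext u
    rw [D1f_apply]
    have es : ∀ i, sl (fun u : Fin n × (m' × m) => g u.1 u.2.1 u.2.2) i = g i := by
      intro i; ext p q; rfl
    simp only [es]
    rw [hg u.1 u.2.1, sub_self]
    rfl
  obtain ⟨y, hy⟩ := hopen π' (D0f (sp π' A') (sp π' A)) (D1f γ (sp π' A') (sp π' A))
    (spec_D0 π' A' A) (spec_D1 γ π' A' A) hf' _ hx
  refine ⟨cur y, fun i => ?_⟩
  ext p q
  have := congrFun hy (i, p, q)
  rw [D0f_apply] at this
  exact this.symm

end Vale.Agent.Lib.P176
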