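import Vale.Agent.Lib.P176.Syz
import Vale.Agent.Lib.P176.Open

namespace Vale.Agent.Lib.P176

section

variable {n : ℕ} {k B : Type*} [Field k] [CommRing B] [Algebra k B]
  {γ : Fin n → Fin n → Fin n → k} {a0 : Fin n}

theorem isStruct_map (hγ : IsStruct γ a0) :
    IsStruct (fun i j l => algebraMap k B (γ i j l)) a0 where
  assoc i j h t := by
    simpa [map_sum, map_mul] using congrArg (algebraMap k B) (hγ.assoc i j h t)
  left j l := by
    rw [hγ.left]; split_ifs <;> simp
  right i l := by
    rw [hγ.right]; split_ifs <;> simp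

theorem isRep_sp {m : Type} [Fintype m] [DecidableEq m] {A : Fin n → Matrix m m B}
    (hA : IsRep (fun i j l => algebraMap k B (γ i j l)) a0 A) (π : B →ₐ[k] k) :
    IsRep γ a0 (sp π A) where
  mul i j := by
    ext p q
    have := congrArg (fun M => π (M p q)) (hA.mul i j)
    simpa [sp, Matrix.mul_apply, Matrix.sum_apply, map_sum] using this
  one := by
    ext p q
    simp only [sp, hA.one, Matrix.map_apply, Matrix.one_apply]
    split_ifs <;> simp

/-- Projective dimension at most `t` is an open condition. -/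
theorem pd_open (hγ : IsStruct γ a0) :
    ∀ (t : ℕ) (m : Type) [Fintype m] [DecidableEq m] (A : Fin n → Matrix m m B),
      IsRep (fun i j l => algebraMap k B (γ i j l)) a0 A →
      ∀ π : B →ₐ[k] k, PDm γ a0 t m (sp π A) →
        ∃ f : B, π f ≠ 0 ∧ ∀ π' : B →ₐ[k] k, π' f ≠ 0 → PDm γ a0 t m (sp π' A) := by
  intro t
  induction t with
  | zero =>
    intro m _ _ A hA π h
    have hsec : HasSec γ a0 (sp π A) := h
    have hCo : Cocy γ (sp π (syz (fun i j l => algebraMap k B (γ i j l)) a0 A)) (sp π A) :=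
      cocy_of_hasSec hγ (isRep_sp hA π) _ hsec
    obtain ⟨f, hf, hf'⟩ := open_cocy γ (a0 := a0) (syz (fun i j l => algebraMap k B (γ i j l)) a0 A) A
      (isRep_syz (isStruct_map hγ) hA) hA π hCo
    refine ⟨f, hf, fun π' hπ' => ?_⟩
    have h2 := hf' π' hπ'
    rw [syz_sp] at h2
    exact hasSec_of_cocy hγ (isRep_sp hA π') h2
  | succ t ih =>
    intro m _ _ A hA π h
    have h' : PDm γ a0 t (Idx a0 m) (sp π (syz (fun i j l => algebraMap k B (γ i j l)) a0 A)) := by
      rw [syz_sp]
      exact h
    obtain ⟨f, hf, hf'⟩ := ih (Idx a0 m) (syz (fun i j l => algebraMap k B (γ i j l)) a0 A)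
      (isRep_syz (isStruct_map hγ) hA) π h'
    refine ⟨f, hf, fun π' hπ' => ?_⟩
    have h2 := hf' π' hπ'
    rw [syz_sp] at h2
    exact h2

end

/-- In a family of representations of the same size with finite projective dimension, the
projective dimension is bounded. -/
theorem noeth {n : ℕ} {k : Type*} [Field k] {γ : Fin n → Fin n → Fin n → k} {a0 : Fin n}
    (hγ : IsStruct γ a0) {m : Type} [Fintype m] [DecidableEq m] {ι : Type*}
    (P : ι → Fin n → Matrix m m k) (hP : ∀ z, IsRep γ a0 (P z))
    (hfin : ∀ z, ∃ t, PDm γ a0 t m (P z)) :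
    ∃ N : ℕ, ∀ z, ∃ t, t ≤ N ∧ PDm γ a0 t m (P z) := by
  classical
  -- the finite set of entry functions and the finitely generated algebra `Bb`
  let e : Fin n × m × m → (ι → k) := fun t z => P z t.1 t.2.1 t.2.2
  let S : Set (ι → k) := Set.range e
  have hS : S.Finite := Set.finite_range e
  let Bb : Subalgebra k (ι → k) := Algebra.adjoin k S
  have hft : Algebra.FiniteType k Bb := by
    refine (Subalgebra.fg_iff_finiteType Bb).1 ?_
    exact ⟨hS.toFinset, by simp [Bb]⟩
  have hnoeth : IsNoetherianRing Bb := Algebra.FiniteType.isNoetherianRing k Bb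
  -- evaluation
  let π : ι → (Bb →ₐ[k] k) := fun z => (Pi.evalAlgHom k (fun _ => k) z).comp Bb.val
  have hsep : ∀ x y : Bb, (∀ z, π z x = π z y) → x = y := by
    intro x y h
    apply Subtype.ext
    funext z
    exact h z
  -- the universal matrices
  let A : Fin n → Matrix m m Bb := fun i => Matrix.of fun a b =>
    ⟨e (i, a, b), Algebra.subset_adjoin ⟨(i, a, b), rfl⟩⟩
  have hAπ : ∀ z, sp (π z) A = P z := by
    intro z
    funext i
    ext a b
    rfl
  have hA : IsRep (fun i j l => algebraMap k Bb (γ i j l)) a0 A := by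
    refine ⟨fun i j => ?_, ?_⟩
    · refine Matrix.ext fun a b => ?_
      apply hsep
      intro z
      have h1 : (π z) ((A i * A j) a b) = (sp (π z) A i * sp (π z) A j) a b := by
        simp [sp, Matrix.mul_apply, map_sum, map_mul]
      have h2 : (π z) ((∑ l, algebraMap k Bb (γ i j l) • A l) a b)
          = (∑ l, γ i j l • sp (π z) A l) a b := by
        simp [sp, Matrix.sum_apply, map_sum, Matrix.smul_apply, smul_eq_mul]
      rw [h1, h2]
      simp only [hAπ]
      rw [(hP z).mul]
    · refine Matrix.ext fun a b => ?_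
      apply hsep
      intro z
      have h1 : (π z) (A a0 a b) = P z a0 a b := rfl
      rw [h1, (hP z).one, Matrix.one_apply, Matrix.one_apply]
      split_ifs <;> simp
  -- the chain of ideals
  let Good : ℕ → Set Bb := fun t => {f | ∀ z, π z f ≠ 0 → ∃ s, s ≤ t ∧ PDm γ a0 s m (P z)}
  have hmono : Monotone (fun t => Ideal.span (Good t)) := by
    intro t t' htt
    apply Ideal.span_mono
    intro f hf z hz
    obtain ⟨s, hs, hs'⟩ := hf z hz
    exact ⟨s, hs.trans htt, hs'⟩
  let I : ℕ →o Ideal Bb := ⟨fun t => Ideal.span (Good t), hmono⟩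
  obtain ⟨N, hN⟩ := monotone_stabilizes_iff_noetherian.mpr (inferInstanceAs (IsNoetherian Bb Bb)) I
  refine ⟨N, fun z => ?_⟩
  obtain ⟨t, ht⟩ := hfin z
  obtain ⟨f, hf, hf'⟩ := pd_open hγ t m A hA (π z) (by rw [hAπ]; exact ht)
  have hgood : f ∈ Good t := fun w hw => ⟨t, le_rfl, by
    have h2 := hf' (π w) hw
    rwa [hAπ] at h2⟩
  by_cases htN : t ≤ N
  · exact ⟨t, htN, ht⟩
  · have hfI : f ∈ I t := Ideal.subset_span hgood
    rw [← hN t (by omega)] at hfI
    by_contra hcon
    have hle : Ideal.span (Good N) ≤ RingHom.ker (π z) := by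
      rw [Ideal.span_le]
      intro g hg
      by_contra hgz
      exact hcon (hg z hgz)
    exact hf (hle hfI)

end Vale.Agent.Lib.P176
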