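import Vale.Agent.Lib.P176.Defs

namespace Vale.Agent.Lib.P176

variable {n : ℕ} {B : Type*} [CommRing B] {m : Type} [Fintype m] [DecidableEq m]
  {γ : Fin n → Fin n → Fin n → B} {a0 : Fin n}

/-- Useful rewriting of a sum with a Kronecker delta in two coordinates. -/
lemma sum_prod_delta {α : Type*} [AddCommMonoid α] (a : Fin n) (b : m)
    (g : Fin n → m → α) :
    ∑ u : Fin n × m, (if u.1 = a ∧ u.2 = b then g u.1 u.2 else 0) = g a b := by
  rw [Finset.sum_eq_single (a, b)]
  · simp
  · rintro ⟨x, y⟩ _ hxy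
    have : ¬ (x = a ∧ y = b) := fun h => hxy (by rw [h.1, h.2])
    simp [this]
  · simp

lemma mu_mul_sec {A : Fin n → Matrix m m B} (hA : A a0 = 1) : mu A * (sec a0 : Matrix (Fin n × m) m B) = 1 := by
  ext b' b
  rw [Matrix.mul_apply]
  have : ∀ u : Fin n × m, mu A b' u * (sec a0 : Matrix (Fin n × m) m B) u b =
      if u.1 = a0 ∧ u.2 = b then A u.1 b' u.2 else 0 := by
    intro u
    simp only [mu, sec]
    split_ifs <;> simp
  simp only [this]
  rw [sum_prod_delta a0 b (fun x y => A x b' y), hA]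

lemma mu_mul_inj {A : Fin n → Matrix m m B} (hA : A a0 = 1) : mu A * inj a0 A = 0 := by
  ext b' v
  rw [Matrix.mul_apply, Matrix.zero_apply]
  have h1 : ∀ u : Fin n × m, mu A b' u * inj a0 A u v =
      (if u.1 = v.1.1 ∧ u.2 = v.2 then A u.1 b' u.2 else 0) -
        (if u.1 = a0 then A u.1 b' u.2 * A v.1.1 u.2 v.2 else 0) := by
    intro u
    simp only [mu, inj]
    split_ifs <;> ring
  simp only [h1]
  rw [Finset.sum_sub_distrib, sum_prod_delta v.1.1 v.2 (fun x y => A x b' y),
    Fintype.sum_prod_type]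
  rw [Finset.sum_eq_single a0]
  · simp only [if_true, hA]
    simp [Matrix.one_apply]
  · intro x _ hx
    simp [hx]
  · simp

lemma pr_mul_inj {A : Fin n → Matrix m m B} : (pr a0 : Matrix (Idx a0 m) (Fin n × m) B) * inj a0 A = 1 := by
  ext u v
  rw [Matrix.mul_apply]
  have h1 : ∀ w : Fin n × m, (pr a0 : Matrix (Idx a0 m) (Fin n × m) B) u w * inj a0 A w v =
      if w.1 = u.1.1 ∧ w.2 = u.2 then inj a0 A w v else 0 := by
    intro w
    simp only [pr]
    by_cases h : w.1 = u.1.1 ∧ w.2 = u.2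
    · rw [if_pos h, if_pos ⟨h.1.symm, h.2.symm⟩, one_mul]
    · rw [if_neg h, if_neg (fun h' => h ⟨h'.1.symm, h'.2.symm⟩), zero_mul]
  simp only [h1]
  rw [sum_prod_delta u.1.1 u.2 (fun x y => inj a0 A (x, y) v)]
  simp only [inj, u.1.2, if_false, sub_zero]
  by_cases h : u = v
  · subst h
    simp
  · rw [Matrix.one_apply_ne h, if_neg]
    rintro ⟨h1, h2⟩
    exact h (Prod.ext (Subtype.ext h1) h2)

lemma inj_pr_add {A : Fin n → Matrix m m B} (hA : A a0 = 1) :
    inj a0 A * (pr a0 : Matrix (Idx a0 m) (Fin n × m) B) + (sec a0 : Matrix (Fin n × m) m B) * mu A = 1 := by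
  ext u w
  rw [Matrix.add_apply, Matrix.mul_apply, Matrix.mul_apply]
  have h2 : ∑ c : m, (sec a0 : Matrix (Fin n × m) m B) u c * mu A c w = if u.1 = a0 then A w.1 u.2 w.2 else 0 := by
    rw [Finset.sum_eq_single u.2]
    · simp [sec, mu]
    · intro c _ hc
      simp [sec, hc.symm]
    · simp
  rw [h2]
  by_cases ha : w.1 = a0
  · have h1 : ∑ v : Idx a0 m, inj a0 A u v * (pr a0 : Matrix (Idx a0 m) (Fin n × m) B) v w = 0 := by
      refine Finset.sum_eq_zero fun v _ => ?_
      have : ¬ (v.1.1 = w.1 ∧ v.2 = w.2) := fun h => v.1.2 (h.1.trans ha)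
      simp [pr, this]
    rw [h1, zero_add, ha, hA]
    by_cases hu : u.1 = a0
    · rw [if_pos hu]
      by_cases hb : u.2 = w.2
      · have : u = w := Prod.ext (hu.trans ha.symm) hb
        rw [this]
        simp
      · rw [Matrix.one_apply_ne hb, Matrix.one_apply_ne]
        intro h
        exact hb (congrArg Prod.snd h)
    · rw [if_neg hu, Matrix.one_apply_ne]
      intro h
      exact hu ((congrArg Prod.fst h).trans ha)
  · have h1 : ∑ v : Idx a0 m, inj a0 A u v * (pr a0 : Matrix (Idx a0 m) (Fin n × m) B) v w =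
        inj a0 A u (⟨w.1, ha⟩, w.2) := by
      rw [Finset.sum_eq_single (⟨w.1, ha⟩, w.2)]
      · simp [pr]
      · intro v _ hv
        have : ¬ (v.1.1 = w.1 ∧ v.2 = w.2) := fun h =>
          hv (Prod.ext (Subtype.ext h.1) h.2)
        simp [pr, this]
      · simp
    rw [h1]
    simp only [inj]
    by_cases huw : u = w
    · subst huw
      simp
    · rw [Matrix.one_apply_ne huw, if_neg]
      · ring
      · rintro ⟨h3, h4⟩
        exact huw (Prod.ext h3 h4)

lemma F_mul_F (hγ : IsStruct γ a0) (i j : Fin n) :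
    (F γ i : Matrix (Fin n × m) (Fin n × m) B) * (F γ j : Matrix (Fin n × m) (Fin n × m) B) = ∑ l, γ i j l • (F γ l : Matrix (Fin n × m) (Fin n × m) B) := by
  ext u w
  rw [Matrix.mul_apply, Matrix.sum_apply]
  have h1 : ∀ v : Fin n × m, (F γ i : Matrix (Fin n × m) (Fin n × m) B) u v * (F γ j : Matrix (Fin n × m) (Fin n × m) B) v w =
      if v.2 = w.2 then (if w.2 = u.2 then γ j w.1 v.1 * γ i v.1 u.1 else 0) else 0 := by
    intro v
    simp only [F]
    by_cases h1 : v.2 = u.2
    · by_cases h2 : w.2 = v.2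
      · rw [if_pos h1, if_pos h2, if_pos h2.symm, if_pos (h2.trans h1)]
        ring
      · have h2' : ¬ v.2 = w.2 := fun h => h2 h.symm
        rw [if_neg h2, if_neg h2', mul_zero]
    · rw [if_neg h1, zero_mul]
      by_cases h2 : v.2 = w.2
      · have h3 : ¬ w.2 = u.2 := fun h => h1 (h2.trans h)
        rw [if_pos h2, if_neg h3]
      · rw [if_neg h2]
  simp only [h1]
  rw [Fintype.sum_prod_type]
  by_cases hb : w.2 = u.2
  · have h2 : ∀ x : Fin n, ∑ y : m, (if (x, y).2 = w.2 then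
        (if w.2 = u.2 then γ j w.1 (x, y).1 * γ i (x, y).1 u.1 else 0) else 0) =
        γ j w.1 x * γ i x u.1 := by
      intro x
      rw [Finset.sum_eq_single w.2]
      · simp [hb]
      · intro y _ hy
        simp [hy]
      · simp
    simp only [h2]
    rw [← hγ.assoc i j w.1 u.1]
    refine Finset.sum_congr rfl fun l _ => ?_
    simp [F, Matrix.smul_apply, hb]
  · have h2 : ∀ x : Fin n, ∑ y : m, (if (x, y).2 = w.2 then
        (if w.2 = u.2 then γ j w.1 (x, y).1 * γ i (x, y).1 u.1 else 0) else 0) = 0 := by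
      intro x
      refine Finset.sum_eq_zero fun y _ => ?_
      simp [hb]
    simp only [h2]
    simp [F, Matrix.smul_apply, hb]

omit [Fintype m] in
lemma F_a0 (hγ : IsStruct γ a0) : (F γ a0 : Matrix (Fin n × m) (Fin n × m) B) = 1 := by
  ext u w
  simp only [F, hγ.left]
  by_cases h : u = w
  · subst h
    simp
  · rw [Matrix.one_apply_ne h]
    by_cases h2 : w.2 = u.2
    · rw [if_pos h2, if_neg]
      intro h3
      exact h (Prod.ext h3.symm h2.symm)
    · rw [if_neg h2]

lemma mu_mul_F {A : Fin n → Matrix m m B} (hA : ∀ i j, A i * A j = ∑ l, γ i j l • A l)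
    (i : Fin n) : mu A * (F γ i : Matrix (Fin n × m) (Fin n × m) B) = A i * mu A := by
  ext b' w
  rw [Matrix.mul_apply, Matrix.mul_apply]
  have h1 : ∀ v : Fin n × m, mu A b' v * (F γ i : Matrix (Fin n × m) (Fin n × m) B) v w =
      if v.2 = w.2 then γ i w.1 v.1 * A v.1 b' w.2 else 0 := by
    intro v
    simp only [mu, F]
    by_cases h : v.2 = w.2
    · rw [if_pos h, if_pos h.symm, h]
      ring
    · have h' : ¬ w.2 = v.2 := fun h' => h h'.symm
      rw [if_neg h, if_neg h', mul_zero]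
  simp only [h1]
  rw [Fintype.sum_prod_type]
  have h2 : ∀ x : Fin n, ∑ y : m, (if (x, y).2 = w.2 then γ i w.1 (x, y).1 * A (x, y).1 b' w.2
      else 0) = γ i w.1 x * A x b' w.2 := by
    intro x
    rw [Finset.sum_eq_single w.2]
    · simp
    · intro y _ hy
      simp [hy]
    · simp
  simp only [h2]
  have h3 : ∑ d : m, A i b' d * mu A d w = (A i * A w.1) b' w.2 := by
    rw [Matrix.mul_apply]
    rfl
  rw [h3, hA, Matrix.sum_apply]
  refine Finset.sum_congr rfl fun l _ => ?_
  rw [Matrix.smul_apply, smul_eq_mul]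

lemma syz_def (A : Fin n → Matrix m m B) (i : Fin n) :
    syz γ a0 A i = (pr a0 : Matrix (Idx a0 m) (Fin n × m) B) * (F γ i : Matrix (Fin n × m) (Fin n × m) B) * inj a0 A := rfl

lemma F_mul_inj {A : Fin n → Matrix m m B} (hA : IsRep γ a0 A) (i : Fin n) :
    (F γ i : Matrix (Fin n × m) (Fin n × m) B) * inj a0 A = inj a0 A * syz γ a0 A i := by
  have h := inj_pr_add hA.one (a0 := a0)
  have h' : inj a0 A * (pr a0 : Matrix (Idx a0 m) (Fin n × m) B) = 1 - (sec a0 : Matrix (Fin n × m) m B) * mu A := eq_sub_of_add_eq h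
  rw [syz_def, ← Matrix.mul_assoc, ← Matrix.mul_assoc, h', Matrix.sub_mul, Matrix.sub_mul,
    Matrix.one_mul, Matrix.mul_assoc (sec a0 : Matrix (Fin n × m) m B) (mu A), mu_mul_F hA.mul,
    Matrix.mul_assoc (sec a0 : Matrix (Fin n × m) m B) (A i * mu A), Matrix.mul_assoc (A i), mu_mul_inj hA.one,
    Matrix.mul_zero, Matrix.mul_zero, sub_zero]

/-- The canonical syzygy of a representation is a representation. -/
theorem isRep_syz (hγ : IsStruct γ a0) {A : Fin n → Matrix m m B} (hA : IsRep γ a0 A) :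
    IsRep γ a0 (syz γ a0 A) := by
  refine ⟨fun i j => ?_, ?_⟩
  · have h1 : syz γ a0 A i * syz γ a0 A j =
        (pr a0 : Matrix (Idx a0 m) (Fin n × m) B) * ((F γ i : Matrix (Fin n × m) (Fin n × m) B) * (F γ j : Matrix (Fin n × m) (Fin n × m) B)) * inj a0 A := by
      rw [syz_def A i, Matrix.mul_assoc ((pr a0 : Matrix (Idx a0 m) (Fin n × m) B) * (F γ i : Matrix (Fin n × m) (Fin n × m) B)), ← F_mul_inj hA j]
      simp only [Matrix.mul_assoc]
    rw [h1, F_mul_F hγ, Matrix.mul_sum, Matrix.sum_mul]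
    refine Finset.sum_congr rfl fun l _ => ?_
    rw [Matrix.mul_smul, Matrix.smul_mul]
    rfl
  · change (pr a0 : Matrix (Idx a0 m) (Fin n × m) B) * (F γ a0 : Matrix (Fin n × m) (Fin n × m) B) * inj a0 A = 1
    rw [F_a0 hγ, Matrix.mul_one, pr_mul_inj]

/-- Projective modules have no extensions: a section makes every cocycle a coboundary. -/
theorem cocy_of_hasSec (hγ : IsStruct γ a0) {C : Fin n → Matrix m m B} (hC : IsRep γ a0 C)
    {m' : Type} [Fintype m'] [DecidableEq m'] (C' : Fin n → Matrix m' m' B)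
    (h : HasSec γ a0 C) : Cocy γ C' C := by
  obtain ⟨S, hS1, hS2'⟩ := h
  have hS2 : ∀ i, (F γ i : Matrix (Fin n × m) (Fin n × m) B) * S = S * C i := hS2'
  intro f hf
  let phi : Matrix m' (Fin n × m) B := fun q w => f w.1 q w.2
  have hphi : ∀ i, phi * (F γ i : Matrix (Fin n × m) (Fin n × m) B) = C' i * phi + f i * mu C := by
    intro i
    ext q w
    rw [Matrix.add_apply, Matrix.mul_apply, Matrix.mul_apply, Matrix.mul_apply]
    have h1 : ∀ v : Fin n × m, phi q v * (F γ i : Matrix (Fin n × m) (Fin n × m) B) v w =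
        if v.2 = w.2 then γ i w.1 v.1 * f v.1 q w.2 else 0 := by
      intro v
      simp only [phi, F]
      by_cases h : v.2 = w.2
      · rw [if_pos h, if_pos h.symm, h]
        ring
      · have h' : ¬ w.2 = v.2 := fun h' => h h'.symm
        rw [if_neg h, if_neg h', mul_zero]
    simp only [h1]
    rw [Fintype.sum_prod_type]
    have h2 : ∀ x : Fin n, ∑ y : m, (if (x, y).2 = w.2 then γ i w.1 (x, y).1 * f (x, y).1 q w.2
        else 0) = γ i w.1 x * f x q w.2 := by
      intro x
      rw [Finset.sum_eq_single w.2]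
      · simp
      · intro y _ hy
        simp [hy]
      · simp
    simp only [h2]
    have h3 := congrFun (congrFun (hf i w.1) q) w.2
    rw [Matrix.add_apply, Matrix.mul_apply, Matrix.mul_apply, Matrix.sum_apply] at h3
    simp only [Matrix.smul_apply, smul_eq_mul] at h3
    rw [← h3]
    rfl
  refine ⟨-(phi * S), fun i => ?_⟩
  have h2 : phi * S * C i = C' i * (phi * S) + f i := by
    rw [Matrix.mul_assoc, ← hS2, ← Matrix.mul_assoc, hphi, Matrix.add_mul, Matrix.mul_assoc,
      Matrix.mul_assoc, hS1, Matrix.mul_one]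
  rw [Matrix.mul_neg, Matrix.neg_mul, sub_neg_eq_add, h2]
  abel

/-- If the extension by the canonical syzygy splits, there is a section. -/
theorem hasSec_of_cocy (hγ : IsStruct γ a0) {C : Fin n → Matrix m m B} (hC : IsRep γ a0 C)
    (h : Cocy γ (syz γ a0 C) C) : HasSec γ a0 C := by
  have hip : inj a0 C * (pr a0 : Matrix (Idx a0 m) (Fin n × m) B) = 1 - (sec a0 : Matrix (Fin n × m) m B) * mu C := eq_sub_of_add_eq (inj_pr_add hC.one)
  have hms : mu C * (sec a0 : Matrix (Fin n × m) m B) = 1 := mu_mul_sec hC.one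
  have hmi : mu C * inj a0 C = 0 := mu_mul_inj hC.one
  have hpi : (pr a0 : Matrix (Idx a0 m) (Fin n × m) B) * inj a0 C = 1 := pr_mul_inj
  let g : Fin n → Matrix (Idx a0 m) m B := fun i => (pr a0 : Matrix (Idx a0 m) (Fin n × m) B) * ((F γ i : Matrix (Fin n × m) (Fin n × m) B) * (sec a0 : Matrix (Fin n × m) m B) - (sec a0 : Matrix (Fin n × m) m B) * C i)
  have hinjg : ∀ i, inj a0 C * g i = (F γ i : Matrix (Fin n × m) (Fin n × m) B) * (sec a0 : Matrix (Fin n × m) m B) - (sec a0 : Matrix (Fin n × m) m B) * C i := by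
    intro i
    have h1 : mu C * ((F γ i : Matrix (Fin n × m) (Fin n × m) B) * (sec a0 : Matrix (Fin n × m) m B) - (sec a0 : Matrix (Fin n × m) m B) * C i) = 0 := by
      rw [Matrix.mul_sub, ← Matrix.mul_assoc (mu C) (F γ i : Matrix (Fin n × m) (Fin n × m) B), mu_mul_F hC.mul,
        Matrix.mul_assoc (C i), hms, Matrix.mul_one, ← Matrix.mul_assoc (mu C) (sec a0 : Matrix (Fin n × m) m B), hms,
        Matrix.one_mul, sub_self]
    change inj a0 C * ((pr a0 : Matrix (Idx a0 m) (Fin n × m) B) * ((F γ i : Matrix (Fin n × m) (Fin n × m) B) * (sec a0 : Matrix (Fin n × m) m B) - (sec a0 : Matrix (Fin n × m) m B) * C i)) = _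
    rw [← Matrix.mul_assoc, hip, Matrix.sub_mul, Matrix.one_mul, Matrix.mul_assoc (sec a0 : Matrix (Fin n × m) m B), h1,
      Matrix.mul_zero, sub_zero]
  have hcoc : ∀ i j, syz γ a0 C i * g j + g i * C j = ∑ l, γ i j l • g l := by
    intro i j
    have e1 : inj a0 C * (syz γ a0 C i * g j) =
        (F γ i : Matrix (Fin n × m) (Fin n × m) B) * ((F γ j : Matrix (Fin n × m) (Fin n × m) B) * (sec a0 : Matrix (Fin n × m) m B) - (sec a0 : Matrix (Fin n × m) m B) * C j) := by
      rw [← Matrix.mul_assoc, ← F_mul_inj hC, Matrix.mul_assoc, hinjg]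
    have e2 : inj a0 C * (g i * C j) = ((F γ i : Matrix (Fin n × m) (Fin n × m) B) * (sec a0 : Matrix (Fin n × m) m B) - (sec a0 : Matrix (Fin n × m) m B) * C i) * C j := by
      rw [← Matrix.mul_assoc, hinjg]
    have e3 : inj a0 C * ∑ l, γ i j l • g l =
        ∑ l, γ i j l • ((F γ l : Matrix (Fin n × m) (Fin n × m) B) * (sec a0 : Matrix (Fin n × m) m B) - (sec a0 : Matrix (Fin n × m) m B) * C l) := by
      rw [Matrix.mul_sum]
      refine Finset.sum_congr rfl fun l _ => ?_
      rw [Matrix.mul_smul, hinjg]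
    have e4 : ∑ l, γ i j l • ((F γ l : Matrix (Fin n × m) (Fin n × m) B) * (sec a0 : Matrix (Fin n × m) m B) - (sec a0 : Matrix (Fin n × m) m B) * C l) =
        ((F γ i : Matrix (Fin n × m) (Fin n × m) B) * (F γ j : Matrix (Fin n × m) (Fin n × m) B)) * (sec a0 : Matrix (Fin n × m) m B) - (sec a0 : Matrix (Fin n × m) m B) * (C i * C j) := by
      rw [F_mul_F hγ, hC.mul, Matrix.sum_mul, Matrix.mul_sum, ← Finset.sum_sub_distrib]
      refine Finset.sum_congr rfl fun l _ => ?_
      rw [smul_sub, Matrix.smul_mul, Matrix.mul_smul]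
    have key : inj a0 C * (syz γ a0 C i * g j + g i * C j) = inj a0 C * ∑ l, γ i j l • g l := by
      rw [Matrix.mul_add, e1, e2, e3, e4]
      simp only [Matrix.mul_sub, Matrix.sub_mul, Matrix.mul_assoc]
      abel
    calc syz γ a0 C i * g j + g i * C j
        = (1 : Matrix (Idx a0 m) (Idx a0 m) B) * (syz γ a0 C i * g j + g i * C j) :=
          (Matrix.one_mul _).symm
      _ = ((pr a0 : Matrix (Idx a0 m) (Fin n × m) B) * inj a0 C) * (syz γ a0 C i * g j + g i * C j) := by rw [hpi]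
      _ = (pr a0 : Matrix (Idx a0 m) (Fin n × m) B) * (inj a0 C * (syz γ a0 C i * g j + g i * C j)) := Matrix.mul_assoc _ _ _
      _ = (pr a0 : Matrix (Idx a0 m) (Fin n × m) B) * (inj a0 C * ∑ l, γ i j l • g l) := by rw [key]
      _ = ((pr a0 : Matrix (Idx a0 m) (Fin n × m) B) * inj a0 C) * ∑ l, γ i j l • g l := (Matrix.mul_assoc _ _ _).symm
      _ = (1 : Matrix (Idx a0 m) (Idx a0 m) B) * ∑ l, γ i j l • g l := by rw [hpi]
      _ = ∑ l, γ i j l • g l := Matrix.one_mul _
  obtain ⟨X, hX⟩ := h g hcoc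
  have hS1 : mu C * ((sec a0 : Matrix (Fin n × m) m B) - inj a0 C * X) = 1 := by
    rw [Matrix.mul_sub, hms, ← Matrix.mul_assoc, hmi, Matrix.zero_mul, sub_zero]
  have hS2 : ∀ i, (F γ i : Matrix (Fin n × m) (Fin n × m) B) * ((sec a0 : Matrix (Fin n × m) m B) - inj a0 C * X) = ((sec a0 : Matrix (Fin n × m) m B) - inj a0 C * X) * C i := by
    intro i
    have h1 : (F γ i : Matrix (Fin n × m) (Fin n × m) B) * (sec a0 : Matrix (Fin n × m) m B) - (sec a0 : Matrix (Fin n × m) m B) * C i =
        inj a0 C * (syz γ a0 C i * X) - inj a0 C * (X * C i) := by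
      rw [← hinjg, hX, Matrix.mul_sub]
    have h2 : (F γ i : Matrix (Fin n × m) (Fin n × m) B) * (inj a0 C * X) = inj a0 C * (syz γ a0 C i * X) := by
      rw [← Matrix.mul_assoc, F_mul_inj hC, Matrix.mul_assoc]
    rw [Matrix.mul_sub, Matrix.sub_mul, h2, Matrix.mul_assoc]
    rw [sub_eq_iff_eq_add] at h1
    rw [h1]
    abel
  exact ⟨_, hS1, hS2⟩

/-- The canonical syzygy commutes with specialization. -/
theorem syz_sp {k : Type*} [Field k] [Algebra k B] (π : B →ₐ[k] k) (γ : Fin n → Fin n → Fin n → k)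
    (A : Fin n → Matrix m m B) :
    sp π (syz (fun i j l => algebraMap k B (γ i j l)) a0 A) = syz γ a0 (sp π A) := by
  funext i
  have e : ∀ (a b : Type) [Fintype a] [Fintype b] [DecidableEq a] [DecidableEq b]
      (c : Type) [Fintype c] (P : Matrix a b B) (Q : Matrix b c B),
      (P * Q).map π = P.map π * Q.map π := by
    intro a b _ _ _ _ c _ P Q
    exact Matrix.map_mul (f := (π : B →+* k))
  have h1 : (pr a0 : Matrix (Idx a0 m) (Fin n × m) B).map π =
      (pr a0 : Matrix (Idx a0 m) (Fin n × m) k) := by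
    ext u v
    simp only [Matrix.map_apply, pr]
    split_ifs <;> simp
  have h2 : (F (fun i j l => algebraMap k B (γ i j l)) i :
      Matrix (Fin n × m) (Fin n × m) B).map π = (F γ i : Matrix (Fin n × m) (Fin n × m) k) := by
    ext u v
    simp only [Matrix.map_apply, F]
    split_ifs <;> simp
  have h3 : (inj a0 A).map π = inj a0 (fun i => (A i).map π) := by
    ext u v
    simp only [Matrix.map_apply, inj, map_sub]
    split_ifs <;> simp
  change ((pr a0 : Matrix (Idx a0 m) (Fin n × m) B) *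
      (F (fun i j l => algebraMap k B (γ i j l)) i : Matrix (Fin n × m) (Fin n × m) B) *
        inj a0 A).map π =
    (pr a0 : Matrix (Idx a0 m) (Fin n × m) k) * (F γ i : Matrix (Fin n × m) (Fin n × m) k) *
      inj a0 (fun i => (A i).map π)
  rw [e, e, h1, h2, h3]

end Vale.Agent.Lib.P176
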