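import Vale.Agent.Lib.P176.Main

namespace Vale.Agent.Lib.P176

open CategoryTheory Abelian DirectSum

universe u

variable {R : Type u} [Ring R]

/-- `IsSyzygy t M K`: the module `K` is a `t`-th syzygy of `M`: there are short exact sequences
`0 → K_{i+1} → P_i → K_i → 0`, `P_i` projective, `K_0 = M`, `K_t = K`. -/
inductive IsSyzygy : ℕ → ModuleCat.{u} R → ModuleCat.{u} R → Prop
  | zero (M : ModuleCat.{u} R) : IsSyzygy 0 M M
  | succ (t : ℕ) (S : ShortComplex (ModuleCat.{u} R)) (_hS : S.ShortExact)
      (_hP : Projective S.X₂) (K : ModuleCat.{u} R) (_h : IsSyzygy t S.X₁ K) :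
      IsSyzygy (t + 1) S.X₃ K

/-- `K` is a direct sum (over an arbitrary index set) of modules each generated by at most `G`
elements. -/
def IsSumOfBounded (G : ℕ) (K : ModuleCat.{u} R) : Prop :=
  ∃ (ι : Type u) (N : ι → ModuleCat.{u} R),
    (∀ i, ∃ f : (Fin G → R) →ₗ[R] N i, Function.Surjective f) ∧
      Nonempty (K ≃ₗ[R] ⨁ i, N i)

theorem finite_of_isSyzygy {t : ℕ} {M K : ModuleCat.{u} R} (h : IsSyzygy t M K) :
    (∃ s : ℕ, HasProjectiveDimensionLE M s) → ∃ s : ℕ, HasProjectiveDimensionLE K s := by
  induction h with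
  | zero M => exact id
  | succ t S hS hP K _ ih =>
    rintro ⟨s, hs⟩
    apply ih
    refine ⟨s, ?_⟩
    have h2 : HasProjectiveDimensionLT S.X₂ (s + 1) :=
      hasProjectiveDimensionLT_of_ge S.X₂ 1 (s + 1) (by omega)
    have h3 : HasProjectiveDimensionLT S.X₃ (s + 1 + 1) :=
      hasProjectiveDimensionLT_of_ge S.X₃ (s + 1) (s + 1 + 1) (by omega)
    exact hS.hasProjectiveDimensionLT_X₁ (s + 1) h2 h3

theorem le_add_of_isSyzygy {t : ℕ} {M K : ModuleCat.{u} R} (h : IsSyzygy t M K) (n : ℕ)
    (hK : HasProjectiveDimensionLE K n) : HasProjectiveDimensionLE M (t + n) := by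
  induction h with
  | zero M => simpa using hK
  | succ t S hS hP K _ ih =>
    have h1 : HasProjectiveDimensionLT S.X₁ (t + n + 1) := ih hK
    have h2 : HasProjectiveDimensionLT S.X₂ (t + n + 1 + 1) :=
      hasProjectiveDimensionLT_of_ge S.X₂ 1 _ (by omega)
    have := hS.hasProjectiveDimensionLT_X₃ (t + n + 1) h1 h2
    show HasProjectiveDimensionLT S.X₃ (t + 1 + n + 1)
    convert this using 1
    omega

section Sum

open scoped Classical

variable {ι : Type u} {F N : ι → Type u} [∀ i, AddCommGroup (F i)] [∀ i, AddCommGroup (N i)]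
  [∀ i, Module R (F i)] [∀ i, Module R (N i)]

/-- Lift of an element all of whose components lie in submodules. -/
noncomputable def liftSub (P : ∀ i, Submodule R (F i)) (x : ⨁ i, F i) (hx : ∀ i, x i ∈ P i) :
    ⨁ i, P i :=
  DFinsupp.mk (x.support) (fun i => ⟨x i, hx i⟩)

theorem liftSub_apply (P : ∀ i, Submodule R (F i)) (x : ⨁ i, F i) (hx : ∀ i, x i ∈ P i) (i : ι) :
    ((liftSub P x hx i : P i) : F i) = x i := by
  unfold liftSub
  rw [DFinsupp.mk_apply]
  split_ifs with h
  · rfl
  · exact (DFinsupp.notMem_support_iff.1 h).symm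

/-- The direct sum of a family of linear maps. -/
noncomputable def sumMap (π : ∀ i, F i →ₗ[R] N i) : (⨁ i, F i) →ₗ[R] ⨁ i, N i :=
  DFinsupp.mapRange.linearMap π

theorem sumMap_apply (π : ∀ i, F i →ₗ[R] N i) (x : ⨁ i, F i) (i : ι) :
    sumMap π x i = π i (x i) :=
  rfl

theorem sumMap_surjective (π : ∀ i, F i →ₗ[R] N i) (hπ : ∀ i, Function.Surjective (π i)) :
    Function.Surjective (sumMap π) := by
  intro y
  choose s hs using hπ
  refine ⟨DFinsupp.mk y.support (fun i => s i (y i)), ?_⟩
  apply DFinsupp.ext
  intro i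
  rw [sumMap_apply, DFinsupp.mk_apply]
  split_ifs with h
  · exact hs i (y i)
  · rw [map_zero]
    exact (DFinsupp.notMem_support_iff.1 h).symm

/-- The kernel of a direct sum of maps is the direct sum of the kernels. -/
noncomputable def kerEquiv (π : ∀ i, F i →ₗ[R] N i) :
    (⨁ i, LinearMap.ker (π i)) ≃ₗ[R] LinearMap.ker (sumMap π) :=
  LinearEquiv.ofBijective
    (LinearMap.codRestrict _ (sumMap fun i => (LinearMap.ker (π i)).subtype) (by
      intro x
      rw [LinearMap.mem_ker]
      apply DFinsupp.ext
      intro i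
      exact (x i).2))
    (by
      constructor
      · intro x y hxy
        apply DFinsupp.ext
        intro i
        apply Subtype.ext
        exact congrArg (fun z : LinearMap.ker (sumMap π) => (z : ⨁ i, F i) i) hxy
      · rintro ⟨x, hx⟩
        have hx' : ∀ i, x i ∈ LinearMap.ker (π i) := by
          intro i
          exact congrArg (fun z : ⨁ i, N i => z i) (LinearMap.mem_ker.1 hx)
        refine ⟨liftSub (fun i => LinearMap.ker (π i)) x hx', ?_⟩
        apply Subtype.ext
        apply DFinsupp.ext
        intro i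
        exact liftSub_apply (fun i => LinearMap.ker (π i)) x hx' i)

end Sum

theorem hasPD_of_equiv {ι : Type u} (K : ι → ModuleCat.{u} R) (Y : ModuleCat.{u} R)
    (e : (⨁ i, K i) ≃ₗ[R] Y) (n : ℕ)
    (h : HasProjectiveDimensionLT (ModuleCat.of R (⨁ i, K i)) n) :
    HasProjectiveDimensionLT Y n :=
  hasProjectiveDimensionLT_of_iso (LinearEquiv.toModuleIso e) n

/-- Projective dimension of a direct sum, arbitrary index set. -/
theorem directSum_pd (n : ℕ) : ∀ {ι : Type u} (N : ι → ModuleCat.{u} R),
    (∀ i, HasProjectiveDimensionLE (N i) n) →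
      HasProjectiveDimensionLE (ModuleCat.of R (⨁ i, N i)) n := by
  induction n with
  | zero =>
    intro ι N hN
    rw [← projective_iff_hasProjectiveDimensionLE_zero, ← IsProjective.iff_projective (R := R)]
    have : ∀ i, Module.Projective R (N i) := fun i => by
      rw [IsProjective.iff_projective (R := R)]
      exact (projective_iff_hasProjectiveDimensionLE_zero _).2 (hN i)
    classical
    infer_instance
  | succ n ih =>
    intro ι N hN
    classical
    let π : ∀ i, ((N i) →₀ R) →ₗ[R] N i := fun i => Finsupp.linearCombination R id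
    have hπ : ∀ i, Function.Surjective (π i) := fun i => by
      intro y
      exact ⟨Finsupp.single y 1, by simp [π]⟩
    -- pd of each kernel
    have hK : ∀ i, HasProjectiveDimensionLE (ModuleCat.of R (LinearMap.ker (π i))) n := by
      intro i
      have hS := LinearMap.shortExact_shortComplexKer (hπ i)
      have hproj : Projective (LinearMap.shortComplexKer (π i)).X₂ := by
        show Projective (ModuleCat.of R ((N i) →₀ R))
        rw [← IsProjective.iff_projective (R := R)]
        exact Module.Projective.of_free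
      have h2 := (hS.hasProjectiveDimensionLT_X₃_iff n hproj).1 (hN i)
      exact h2
    have hKs := ih (fun i => ModuleCat.of R (LinearMap.ker (π i))) hK
    -- total sequence
    have hsurj := sumMap_surjective π hπ
    have hS := LinearMap.shortExact_shortComplexKer hsurj
    have hproj : Projective (LinearMap.shortComplexKer (sumMap π)).X₂ := by
      show Projective (ModuleCat.of R (⨁ i, ((N i) →₀ R)))
      rw [← IsProjective.iff_projective (R := R)]
      infer_instance
    have hX1 : HasProjectiveDimensionLT (LinearMap.shortComplexKer (sumMap π)).X₁ (n + 1) := by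
      exact hasPD_of_equiv (fun i => ModuleCat.of R (LinearMap.ker (π i)))
        (ModuleCat.of R (LinearMap.ker (sumMap π))) (kerEquiv π) (n + 1) hKs
    exact (hS.hasProjectiveDimensionLT_X₃_iff n hproj).2 hX1

/-- Main reduction: summands have bounded pd, hence the sum. -/
theorem pd_le_of_sum {G N₀ : ℕ}
    (hb : ∀ M : ModuleCat.{u} R, (∃ f : (Fin G → R) →ₗ[R] M, Function.Surjective f) →
      (∃ t : ℕ, HasProjectiveDimensionLE M t) → HasProjectiveDimensionLE M N₀)
    {K : ModuleCat.{u} R} (hK : IsSumOfBounded G K) (hf : ∃ s : ℕ, HasProjectiveDimensionLE K s) :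
    HasProjectiveDimensionLE K N₀ := by
  classical
  obtain ⟨ι, N, hgen, ⟨e⟩⟩ := hK
  obtain ⟨s, hs⟩ := hf
  have hN : ∀ i, HasProjectiveDimensionLE (N i) N₀ := by
    intro i
    refine hb _ (hgen i) ⟨s, ?_⟩
    -- `N i` is a retract of `K`
    let r : Retract (N i) K :=
      { i := ModuleCat.ofHom (e.symm.toLinearMap ∘ₗ (DirectSum.lof R ι (fun i => N i) i))
        r := ModuleCat.ofHom ((DirectSum.component R ι (fun i => N i) i) ∘ₗ e.toLinearMap)
        retract := by
          ext x
          simp [DirectSum.component.lof_self] }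
    exact r.hasProjectiveDimensionLT (s + 1)
  have h := directSum_pd N₀ N hN
  have e' : ModuleCat.of R (⨁ i, N i) ≅ K := (e.symm.toModuleIso)
  exact hasProjectiveDimensionLT_of_iso e' (N₀ + 1)

/-- Uniform bound through syzygies: for every `G` there is `N₀` such that for all `t`, `M`, `K`,
if `K` is a `t`-th syzygy of `M` and a direct sum of modules with at most `G` generators, and `M`
has finite projective dimension, then `pd M ≤ t + N₀`. `M` and the index set are arbitrary. -/
theorem pd_le_of_syzygy_sum {k : Type*} [Field k] {R : Type u} [Ring R] [Algebra k R]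
    [FiniteDimensional k R] (G : ℕ) :
    ∃ N₀ : ℕ, ∀ (t : ℕ) (M K : ModuleCat.{u} R), IsSyzygy t M K → IsSumOfBounded G K →
      (∃ s : ℕ, HasProjectiveDimensionLE M s) → HasProjectiveDimensionLE M (t + N₀) := by
  obtain ⟨N₀, hN₀⟩ := bounded_pd (k := k) (R := R) G
  refine ⟨N₀, fun t M K hs hK hf => ?_⟩
  exact le_add_of_isSyzygy hs N₀ (pd_le_of_sum hN₀ hK (finite_of_isSyzygy hs hf))

end Vale.Agent.Lib.P176
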