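import Vale.Agent.Lib.P176.UniOpen
import Vale.Agent.Lib.P176.Main
import Vale.Agent.Lib.P176.SyzBound

namespace Vale.Agent.Lib.P176.Uni

open Matrix

universe u v

section Map

variable {n : ℕ} {B : Type*} {K : Type*} [CommRing B] [Field K] {m m' : Type}

/-- Specialization of a family of matrices along a ring map. -/
def mp (π : B →+* K) (A : Fin n → Matrix m m B) : Fin n → Matrix m m K :=
  fun i => (A i).map π

/-- Specialization of structure constants along a ring map. -/
def mg (π : B →+* K) (γ : Fin n → Fin n → Fin n → B) : Fin n → Fin n → Fin n → K :=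
  fun i j l => π (γ i j l)

theorem isStruct_mg (π : B →+* K) {γ : Fin n → Fin n → Fin n → B} {a0 : Fin n}
    (hγ : IsStruct γ a0) : IsStruct (mg π γ) a0 where
  assoc i j h t := by
    simpa [mg, map_sum, map_mul] using congrArg π (hγ.assoc i j h t)
  left j l := by
    simp only [mg]
    rw [hγ.left]
    split_ifs <;> simp
  right i l := by
    simp only [mg]
    rw [hγ.right]
    split_ifs <;> simp

theorem isRep_mp (π : B →+* K) {γ : Fin n → Fin n → Fin n → B} {a0 : Fin n} [Fintype m]
    [DecidableEq m] {A : Fin n → Matrix m m B} (hA : IsRep γ a0 A) :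
    IsRep (mg π γ) a0 (mp π A) where
  mul i j := by
    ext p q
    have := congrArg (fun M => π (M p q)) (hA.mul i j)
    simpa [mp, mg, Matrix.mul_apply, Matrix.sum_apply, map_sum] using this
  one := by
    ext p q
    simp only [mp, hA.one, Matrix.map_apply, Matrix.one_apply]
    split_ifs <;> simp

lemma pi_mul_apply' {u' v' w : Type} [Fintype v'] (π : B →+* K) (M : Matrix u' v' B)
    (N : Matrix v' w B) (p : u') (q : w) : π ((M * N) p q) = (M.map π * N.map π) p q := by
  simp [Matrix.mul_apply, map_sum, map_mul]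

variable [Fintype m] [DecidableEq m] [Fintype m'] [DecidableEq m']

lemma spec_D0' (π : B →+* K) (A' : Fin n → Matrix m' m' B) (A : Fin n → Matrix m m B)
    (x : m' × m → B) (u : Fin n × (m' × m)) :
    π (D0f A' A x u) = D0f (mp π A') (mp π A) (fun i => π (x i)) u := by
  rw [D0f_apply, D0f_apply, Matrix.sub_apply, Matrix.sub_apply, map_sub, pi_mul_apply',
    pi_mul_apply']
  have e1 : (cur x).map π = cur (fun i => π (x i)) := by ext p q; rfl
  rw [e1]
  rfl

lemma spec_D1' (γ : Fin n → Fin n → Fin n → B) (π : B →+* K) (A' : Fin n → Matrix m' m' B)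
    (A : Fin n → Matrix m m B) (f : Fin n × (m' × m) → B) (u : Fin n × Fin n × (m' × m)) :
    π (D1f γ A' A f u) = D1f (mg π γ) (mp π A') (mp π A) (fun i => π (f i)) u := by
  rw [D1f_apply, D1f_apply, Matrix.sub_apply, Matrix.sub_apply, Matrix.add_apply, Matrix.add_apply,
    map_sub, map_add, pi_mul_apply', pi_mul_apply']
  have e1 : ∀ i, (sl f i).map π = sl (fun i => π (f i)) i := by intro i; ext p q; rfl
  rw [e1, e1]
  congr 1
  simp only [Matrix.sum_apply, map_sum, Matrix.smul_apply, smul_eq_mul, map_mul]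
  rfl

end Map

section Open

variable {n : ℕ} {B : Type*} {m m' : Type} [CommRing B]
  [Fintype m] [DecidableEq m] [Fintype m'] [DecidableEq m']

lemma toMatrix_map {K : Type*} [Field K] (π : B →+* K) {a b : Type*} [Fintype a] [Fintype b]
    [DecidableEq a] [DecidableEq b]
    (D : (a → B) →ₗ[B] (b → B)) (Dk : (a → K) →ₗ[K] (b → K))
    (h : ∀ x u, π (D x u) = Dk (fun i => π (x i)) u) :
    (LinearMap.toMatrix' D).map π = LinearMap.toMatrix' Dk := by
  ext p q
  rw [Matrix.map_apply, LinearMap.toMatrix'_apply, LinearMap.toMatrix'_apply, h]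
  have e : (fun i => π ((Pi.single q 1 : a → B) i)) = (Pi.single q 1 : a → K) := by
    funext i
    by_cases hi : i = q
    · subst hi
      simp
    · simp [hi]
  rw [e]

/-- Vanishing of `Ext¹` between two families is open, for points in arbitrary fields. -/
theorem open_cocy_uni {K : Type v} [Field K] (γ : Fin n → Fin n → Fin n → B) {a0 : Fin n}
    (A' : Fin n → Matrix m' m' B) (A : Fin n → Matrix m m B)
    (hA' : IsRep γ a0 A') (hA : IsRep γ a0 A) (π : B →+* K)
    (h : Cocy (mg π γ) (mp π A') (mp π A)) :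
    ∃ f : B, π f ≠ 0 ∧ ∀ (K' : Type v) [Field K'] (π' : B →+* K'), π' f ≠ 0 →
      Cocy (mg π' γ) (mp π' A') (mp π' A) := by
  classical
  have hex : ∀ x, D1f (mg π γ) (mp π A') (mp π A) x = 0 → ∃ y, D0f (mp π A') (mp π A) y = x := by
    intro x hx
    obtain ⟨X, hX⟩ := h (sl x) (by
      intro i j
      have hz : (mp π A' i * sl x j + sl x i * mp π A j - ∑ l, mg π γ i j l • sl x l) = 0 := by
        ext p q
        have := congrFun hx (i, j, p, q)
        rw [D1f_apply] at this
        exact this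
      exact sub_eq_zero.mp hz)
    refine ⟨fun p => X p.1 p.2, ?_⟩
    funext u
    have e := congrFun (congrFun (hX u.1) u.2.1) u.2.2
    have e3 : cur (fun p : m' × m => X p.1 p.2) = X := by ext p q; rfl
    rw [D0f_apply, e3]
    exact e.symm
  set M0 := LinearMap.toMatrix' (D0f A' A) with hM0
  set M1 := LinearMap.toMatrix' (D1f γ A' A) with hM1
  have hcomp : M1 * M0 = 0 := by
    rw [hM0, hM1, ← LinearMap.toMatrix'_comp]
    have : (D1f γ A' A) ∘ₗ (D0f A' A) = 0 := by
      ext1 x
      exact LinearMap.ext fun x => D1f_D0f γ A' A hA'.mul hA.mul _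
    rw [this]
    exact map_zero _
  have hm0 : ∀ {K₁ : Type v} [Field K₁] (π₁ : B →+* K₁),
      M0.map π₁ = LinearMap.toMatrix' (D0f (mp π₁ A') (mp π₁ A)) :=
    fun π₁ => toMatrix_map π₁ _ _ (spec_D0' π₁ A' A)
  have hm1 : ∀ {K₁ : Type v} [Field K₁] (π₁ : B →+* K₁),
      M1.map π₁ = LinearMap.toMatrix' (D1f (mg π₁ γ) (mp π₁ A') (mp π₁ A)) :=
    fun π₁ => toMatrix_map π₁ _ _ (spec_D1' γ π₁ A' A)
  obtain ⟨f, hf, hopen⟩ := open_exact_uni π M0 M1 hcomp (by
    intro x hx
    rw [hm1, LinearMap.toMatrix'_mulVec] at hx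
    obtain ⟨y, hy⟩ := hex x hx
    exact ⟨y, by rw [hm0, LinearMap.toMatrix'_mulVec, hy]⟩)
  refine ⟨f, hf, fun K' _ π' hf' g hg => ?_⟩
  have hx : D1f (mg π' γ) (mp π' A') (mp π' A) (fun u => g u.1 u.2.1 u.2.2) = 0 := by
    funext u
    rw [D1f_apply]
    have es : ∀ i, sl (fun u : Fin n × (m' × m) => g u.1 u.2.1 u.2.2) i = g i := by
      intro i; ext p q; rfl
    simp only [es]
    rw [hg u.1 u.2.1, sub_self]
    rfl
  obtain ⟨y, hy⟩ := hopen K' π' hf' (fun u => g u.1 u.2.1 u.2.2) (by
    rw [hm1, LinearMap.toMatrix'_mulVec]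
    exact hx)
  rw [hm0, LinearMap.toMatrix'_mulVec] at hy
  refine ⟨cur y, fun i => ?_⟩
  ext p q
  have := congrFun hy (i, p, q)
  rw [D0f_apply] at this
  exact this.symm

/-- The canonical syzygy commutes with specialization along a ring map. -/
theorem syz_mp {K : Type*} [Field K] (π : B →+* K) (γ : Fin n → Fin n → Fin n → B) (a0 : Fin n)
    (A : Fin n → Matrix m m B) :
    mp π (syz γ a0 A) = syz (mg π γ) a0 (mp π A) := by
  funext i
  have e : ∀ (a b : Type) [Fintype a] [Fintype b] [DecidableEq a] [DecidableEq b]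
      (c : Type) [Fintype c] (P : Matrix a b B) (Q : Matrix b c B),
      (P * Q).map π = P.map π * Q.map π := by
    intro a b _ _ _ _ c _ P Q
    exact Matrix.map_mul (f := π)
  have h1 : (pr a0 : Matrix (Idx a0 m) (Fin n × m) B).map π =
      (pr a0 : Matrix (Idx a0 m) (Fin n × m) K) := by
    ext u v
    simp only [Matrix.map_apply, pr]
    split_ifs <;> simp
  have h2 : (F γ i : Matrix (Fin n × m) (Fin n × m) B).map π =
      (F (mg π γ) i : Matrix (Fin n × m) (Fin n × m) K) := by
    ext u v
    simp only [Matrix.map_apply, F, mg]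
    split_ifs <;> simp
  have h3 : (inj a0 A).map π = inj a0 (mp π A) := by
    ext u v
    simp only [Matrix.map_apply, inj, map_sub, mp]
    split_ifs <;> simp
  change ((pr a0 : Matrix (Idx a0 m) (Fin n × m) B) *
      (F γ i : Matrix (Fin n × m) (Fin n × m) B) * inj a0 A).map π =
    (pr a0 : Matrix (Idx a0 m) (Fin n × m) K) *
      (F (mg π γ) i : Matrix (Fin n × m) (Fin n × m) K) * inj a0 (mp π A)
  rw [e, e, h1, h2, h3]

end Open

/-- Projective dimension at most `t` is an open condition, for points in arbitrary fields. -/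
theorem pd_open_uni {n : ℕ} {B : Type*} [CommRing B] {γ : Fin n → Fin n → Fin n → B} {a0 : Fin n}
    (hγ : IsStruct γ a0) {K : Type v} [Field K] (π : B →+* K) :
    ∀ (t : ℕ) (m : Type) [Fintype m] [DecidableEq m] (A : Fin n → Matrix m m B),
      IsRep γ a0 A → PDm (mg π γ) a0 t m (mp π A) →
        ∃ f : B, π f ≠ 0 ∧ ∀ (K' : Type v) [Field K'] (π' : B →+* K'), π' f ≠ 0 →
          PDm (mg π' γ) a0 t m (mp π' A) := by
  intro t
  induction t with
  | zero =>
    intro m _ _ A hA h
    have hsec : HasSec (mg π γ) a0 (mp π A) := h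
    have hCo : Cocy (mg π γ) (mp π (syz γ a0 A)) (mp π A) :=
      cocy_of_hasSec (isStruct_mg π hγ) (isRep_mp π hA) _ hsec
    obtain ⟨f, hf, hf'⟩ := open_cocy_uni γ (a0 := a0) (syz γ a0 A) A
      (isRep_syz hγ hA) hA π hCo
    refine ⟨f, hf, fun K' _ π' hπ' => ?_⟩
    have h2 := hf' K' π' hπ'
    rw [syz_mp] at h2
    exact hasSec_of_cocy (isStruct_mg π' hγ) (isRep_mp π' hA) h2
  | succ t ih =>
    intro m _ _ A hA h
    have h' : PDm (mg π γ) a0 t (Idx a0 m) (mp π (syz γ a0 A)) := by
      rw [syz_mp]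
      exact h
    obtain ⟨f, hf, hf'⟩ := ih (Idx a0 m) (syz γ a0 A) (isRep_syz hγ hA) h'
    refine ⟨f, hf, fun K' _ π' hπ' => ?_⟩
    have h2 := hf' K' π' hπ'
    rw [syz_mp] at h2
    exact h2

/-- A family of representations over varying fields, of fixed sizes, with finite projective
dimensions: the projective dimension is bounded on the family. -/
theorem noeth_uni {n : ℕ} {a0 : Fin n} {m : Type} [Fintype m] [DecidableEq m] {ι : Type*}
    (K : ι → Type v) [∀ z, Field (K z)] (γ : ∀ z, Fin n → Fin n → Fin n → K z)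
    (P : ∀ z, Fin n → Matrix m m (K z)) (hγ : ∀ z, IsStruct (γ z) a0)
    (hP : ∀ z, IsRep (γ z) a0 (P z)) (hfin : ∀ z, ∃ t, PDm (γ z) a0 t m (P z)) :
    ∃ N : ℕ, ∀ z, ∃ t, t ≤ N ∧ PDm (γ z) a0 t m (P z) := by
  classical
  let eg : Fin n × Fin n × Fin n → (∀ z, K z) := fun t z => γ z t.1 t.2.1 t.2.2
  let e : Fin n × m × m → (∀ z, K z) := fun t z => P z t.1 t.2.1 t.2.2
  let S : Set (∀ z, K z) := Set.range eg ∪ Set.range e
  have hS : S.Finite := (Set.finite_range eg).union (Set.finite_range e)
  let Bb : Subalgebra ℤ (∀ z, K z) := Algebra.adjoin ℤ S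
  have hft : Algebra.FiniteType ℤ Bb := by
    refine (Subalgebra.fg_iff_finiteType Bb).1 ?_
    exact ⟨hS.toFinset, by simp [Bb]⟩
  have hnoeth : IsNoetherianRing Bb := Algebra.FiniteType.isNoetherianRing ℤ Bb
  -- evaluation
  let π : ∀ z, Bb →+* K z := fun z => (Pi.evalRingHom K z).comp (Bb.val : Bb →+* (∀ z, K z))
  have hsep : ∀ x y : Bb, (∀ z, π z x = π z y) → x = y := by
    intro x y h
    apply Subtype.ext
    funext z
    exact h z
  -- universal data
  let γB : Fin n → Fin n → Fin n → Bb := fun i j l =>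
    ⟨eg (i, j, l), Algebra.subset_adjoin (Or.inl ⟨(i, j, l), rfl⟩)⟩
  let A : Fin n → Matrix m m Bb := fun i => Matrix.of fun a b =>
    ⟨e (i, a, b), Algebra.subset_adjoin (Or.inr ⟨(i, a, b), rfl⟩)⟩
  have hgπ : ∀ z, mg (π z) γB = γ z := fun z => rfl
  have hAπ : ∀ z, mp (π z) A = P z := fun z => rfl
  have hγB : IsStruct γB a0 := by
    refine ⟨fun i j h t => ?_, fun j l => ?_, fun i l => ?_⟩
    · apply hsep
      intro z
      have := (hγ z).assoc i j h t
      simpa [map_sum, map_mul, ← hgπ z, mg] using this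
    · apply hsep
      intro z
      have := (hγ z).left j l
      rw [← hgπ z] at this
      simp only [mg] at this
      rw [this]
      split_ifs <;> simp
    · apply hsep
      intro z
      have := (hγ z).right i l
      rw [← hgπ z] at this
      simp only [mg] at this
      rw [this]
      split_ifs <;> simp
  have hA : IsRep γB a0 A := by
    refine ⟨fun i j => ?_, ?_⟩
    · refine Matrix.ext fun a b => ?_
      apply hsep
      intro z
      have h1 : (π z) ((A i * A j) a b) = (mp (π z) A i * mp (π z) A j) a b := by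
        simp [mp, Matrix.mul_apply, map_sum, map_mul]
      have h2 : (π z) ((∑ l, γB i j l • A l) a b)
          = (∑ l, mg (π z) γB i j l • mp (π z) A l) a b := by
        simp [mp, mg, Matrix.sum_apply, map_sum, Matrix.smul_apply, smul_eq_mul]
      rw [h1, h2, hAπ, hgπ]
      rw [(hP z).mul]
    · refine Matrix.ext fun a b => ?_
      apply hsep
      intro z
      have h1 : (π z) (A a0 a b) = P z a0 a b := rfl
      rw [h1, (hP z).one, Matrix.one_apply, Matrix.one_apply]
      split_ifs <;> simp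
  -- the chain of ideals
  let Good : ℕ → Set Bb := fun t => {f | ∀ z, π z f ≠ 0 → ∃ s, s ≤ t ∧ PDm (γ z) a0 s m (P z)}
  have hmono : Monotone (fun t => Ideal.span (Good t)) := by
    intro t t' htt
    apply Ideal.span_mono
    intro f hf z hz
    obtain ⟨s, hs, hs'⟩ := hf z hz
    exact ⟨s, hs.trans htt, hs'⟩
  let I : ℕ →o Ideal Bb := ⟨fun t => Ideal.span (Good t), hmono⟩
  obtain ⟨N, hN⟩ := monotone_stabilizes_iff_noetherian.mpr (inferInstanceAs (IsNoetherian Bb Bb)) I
  refine ⟨N, fun z => ?_⟩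
  obtain ⟨t, ht⟩ := hfin z
  obtain ⟨f, hf, hf'⟩ := pd_open_uni hγB (π z) t m A hA (by rw [hAπ, hgπ]; exact ht)
  have hgood : f ∈ Good t := fun w hw => ⟨t, le_rfl, by
    have h2 := hf' (K w) (π w) hw
    rwa [hAπ, hgπ] at h2⟩
  by_cases htN : t ≤ N
  · exact ⟨t, htN, ht⟩
  · have hfI : f ∈ I t := Ideal.subset_span hgood
    rw [← hN t (by omega)] at hfI
    by_contra hcon
    have hle : Ideal.span (Good N) ≤ RingHom.ker (π z) := by
      rw [Ideal.span_le]
      intro g hg
      by_contra hgz
      exact hcon (hg z hgz)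
    exact hf (hle hfI)

/-- A point of the universal family: a field, structure constants and a representation. -/
structure Pt (n d : ℕ) (a0 : Fin n) where
  /-- the field -/
  k : Type v
  /-- its field structure -/
  fld : Field k
  /-- structure constants -/
  γ : Fin n → Fin n → Fin n → k
  /-- the representation -/
  P : Fin n → Matrix (Fin d) (Fin d) k
  hγ : IsStruct γ a0
  hP : IsRep γ a0 P
  hfin : ∃ t, PDm γ a0 t (Fin d) P

attribute [instance] Pt.fld

/-- Uniform bound on the matrix side: depends only on the sizes. -/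
theorem uniform_matrix (n d : ℕ) (a0 : Fin n) : ∃ N : ℕ, ∀ (k : Type v) [Field k]
    (γ : Fin n → Fin n → Fin n → k) (C : Fin n → Matrix (Fin d) (Fin d) k),
    IsStruct γ a0 → IsRep γ a0 C → (∃ t, PDm γ a0 t (Fin d) C) →
      ∃ t, t ≤ N ∧ PDm γ a0 t (Fin d) C := by
  obtain ⟨N, hN⟩ := noeth_uni (a0 := a0) (m := Fin d) (ι := Pt.{v} n d a0) (fun z => z.k)
    (fun z => z.γ) (fun z => z.P) (fun z => z.hγ) (fun z => z.hP) (fun z => z.hfin)
  refine ⟨N, fun k _ γ C h1 h2 h3 => ?_⟩
  exact hN ⟨k, inferInstance, γ, C, h1, h2, h3⟩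

open Module CategoryTheory Abelian

/-- The bound on the projective dimension depends only on the dimension of the algebra and on the
number of generators, neither on the algebra nor on the field. -/
theorem uniform_bounded_pd (n G : ℕ) : ∃ N : ℕ, ∀ (k : Type v) [Field k] (R : Type u) [Ring R]
    [Algebra k R] [FiniteDimensional k R], Module.finrank k R = n → ∀ M : ModuleCat.{u} R,
      (∃ f : (Fin G → R) →ₗ[R] M, Function.Surjective f) →
      (∃ t : ℕ, HasProjectiveDimensionLE M t) → HasProjectiveDimensionLE M N := by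
  classical
  choose Nd hNd using uniform_matrix.{v} n
  refine ⟨(Finset.range (G * n + 1)).sup fun d => Finset.univ.sup fun a0 => Nd d a0,
    fun k _ R _ _ _ hn M hgen ht => ?_⟩
  by_cases hR : Subsingleton R
  · haveI : Subsingleton M := Module.subsingleton R M
    have hz : Limits.IsZero M := ModuleCat.isZero_of_subsingleton M
    haveI := hz.hasProjectiveDimensionLT_zero
    exact hasProjectiveDimensionLT_of_ge M 0 _ (by omega)
  haveI : Nontrivial R := not_subsingleton_iff_nontrivial.mp hR
  obtain ⟨n', e, a0, he⟩ := exists_basis_one k R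
  have hn' : n' = n := by
    rw [← hn, Module.finrank_eq_card_basis e, Fintype.card_fin]
  subst hn'
  have hγ : IsStruct (gam e) a0 := isStruct_gam e a0 he
  letI instK : Module k M := Module.compHom M (algebraMap k R)
  haveI instT : IsScalarTower k R M := IsScalarTower.of_algebraMap_smul (fun _ _ => rfl)
  obtain ⟨f, hf⟩ := hgen
  let fk : (Fin G → R) →ₗ[k] M := f.restrictScalars k
  have hfk : Function.Surjective fk := hf
  haveI h1 : Module.Finite k M := Module.Finite.of_surjective fk hfk
  have h2 : Module.finrank k M ≤ Module.finrank k (Fin G → R) :=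
    LinearMap.finrank_le_finrank_of_surjective hfk
  have h3 : Module.finrank k (Fin G → R) = G * n' := by
    rw [Module.finrank_pi_fintype]
    simp [hn]
  let b : Basis (Fin (Module.finrank k M)) k M := Module.finBasisOfFinrankEq k M rfl
  obtain ⟨t, ht⟩ := ht
  have hPD : PDm (gam e) a0 t (Fin (Module.finrank k M)) (rep e b) :=
    (pd_iff e a0 he t _ M b).1 ht
  obtain ⟨s, hs, hs'⟩ := hNd _ a0 k _ _ hγ (isRep_rep e b a0 he) ⟨t, hPD⟩
  have hsM : HasProjectiveDimensionLE (ModuleCat.of R M) s := (pd_iff e a0 he s _ M b).2 hs'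
  have hle : Nd (Module.finrank k M) a0 ≤ (Finset.range (G * n' + 1)).sup fun d =>
      Finset.univ.sup fun a0 => Nd d a0 :=
    le_trans (Finset.le_sup (f := fun a0 => Nd (Module.finrank k M) a0) (Finset.mem_univ a0))
      (Finset.le_sup (f := fun d => Finset.univ.sup fun a0 => Nd d a0)
        (Finset.mem_range.2 (by omega)))
  have hM : HasProjectiveDimensionLE M s := hsM
  exact hasProjectiveDimensionLT_of_ge M (s + 1) _ (by omega)

/-- The same bound through syzygies and direct sums, arbitrary modules: `N₀` depends only on the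
dimension of the algebra and on `G`. -/
theorem uniform_syzygy (n G : ℕ) : ∃ N₀ : ℕ, ∀ (k : Type v) [Field k] (R : Type u) [Ring R]
    [Algebra k R] [FiniteDimensional k R], Module.finrank k R = n →
    ∀ (t : ℕ) (M K : ModuleCat.{u} R), IsSyzygy t M K → IsSumOfBounded G K →
      (∃ s : ℕ, HasProjectiveDimensionLE M s) → HasProjectiveDimensionLE M (t + N₀) := by
  obtain ⟨N₀, hN₀⟩ := uniform_bounded_pd.{u, v} n G
  refine ⟨N₀, fun k _ R _ _ _ hn t M K hs hK hf => ?_⟩
  exact le_add_of_isSyzygy hs N₀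
    (pd_le_of_sum (hN₀ k R hn) hK (finite_of_isSyzygy hs hf))

end Vale.Agent.Lib.P176.Uni
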