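import Vale.Agent.Lib.P176.Open
import Vale.Agent.Lib.P176.Syz

namespace Vale.Agent.Lib.P176.Uni

open Vale.Agent.Lib.P195.Rig Matrix

universe v

/-- Finitely many elements of the subfield generated by the image of `π` have a common denominator. -/
lemma exists_common_denom {B K : Type*} [CommRing B] [Field K] (π : B →+* K)
    {T : Type*} [Fintype T] (x : T → K) (hx : ∀ t, x t ∈ Subfield.closure (π.range : Set K)) :
    ∃ s : B, π s ≠ 0 ∧ ∀ t, ∃ a : B, π a = π s * x t := by
  classical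
  have h : ∀ t, ∃ a b : B, π b ≠ 0 ∧ x t = π a / π b := by
    intro t
    obtain ⟨y, hy, z, hz, hyz⟩ := Subfield.mem_closure_iff.1 (hx t)
    rw [show Subring.closure (π.range : Set K) = π.range from Subring.closure_eq _] at hy hz
    obtain ⟨a, rfl⟩ := hy
    obtain ⟨b, rfl⟩ := hz
    by_cases hb : π b = 0
    · refine ⟨0, 1, by simp, ?_⟩
      rw [← hyz, hb]
      simp
    · exact ⟨a, b, hb, hyz.symm⟩
  choose a b hb hab using h
  refine ⟨∏ t, b t, ?_, fun t => ?_⟩
  · rw [map_prod]
    exact Finset.prod_ne_zero_iff.2 fun t _ => hb t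
  · refine ⟨a t * ∏ u ∈ Finset.univ.erase t, b u, ?_⟩
    rw [hab t, map_mul, ← Finset.mul_prod_erase Finset.univ b (Finset.mem_univ t), map_mul]
    have := hb t
    field_simp

/-- Generalized inverse of a matrix over a field. -/
lemma exists_ginv_mat {κ : Type*} [Field κ] {a b : Type*} [Fintype a] [Fintype b] [DecidableEq a]
    [DecidableEq b] (M : Matrix b a κ) : ∃ g : Matrix a b κ, M * g * M = M := by
  obtain ⟨g, hg⟩ := exists_ginv (Matrix.toLin' M)
  refine ⟨LinearMap.toMatrix' g, ?_⟩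
  apply Matrix.toLin'.injective
  rw [Matrix.toLin'_mul, Matrix.toLin'_mul, Matrix.toLin'_toMatrix']
  exact LinearMap.ext fun x => hg x

/-- Homotopy with denominators: exactness at a point in an arbitrary field gives a homotopy over
`B` up to a scalar not vanishing at the point. -/
theorem exists_homotopy {B K : Type*} [CommRing B] [Field K] (π : B →+* K)
    {a b c : Type*} [Fintype a] [Fintype b] [Fintype c]
    [DecidableEq a] [DecidableEq b] [DecidableEq c]
    (M0 : Matrix b a B) (M1 : Matrix c b B)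
    (hex : ∀ x : b → K, (M1.map π) *ᵥ x = 0 → ∃ y : a → K, (M0.map π) *ᵥ y = x) :
    ∃ (s : B) (H1 : Matrix a b B) (H2 : Matrix b c B), π s ≠ 0 ∧
      (M0 * H1 + H2 * M1).map π = π s • (1 : Matrix b b K) := by
  classical
  set κ := Subfield.closure (π.range : Set K) with hκ
  have hmem : ∀ r : B, π r ∈ κ := fun r => Subfield.subset_closure ⟨r, rfl⟩
  let ι : κ →+* K := κ.subtype
  have hι : Function.Injective ι := Subtype.val_injective
  let M0κ : Matrix b a κ := fun i j => ⟨π (M0 i j), hmem _⟩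
  let M1κ : Matrix c b κ := fun i j => ⟨π (M1 i j), hmem _⟩
  have e0 : M0κ.map ι = M0.map π := rfl
  have e1 : M1κ.map ι = M1.map π := rfl
  obtain ⟨g0, hg0⟩ := exists_ginv_mat M0κ
  obtain ⟨g1, hg1⟩ := exists_ginv_mat M1κ
  -- descent of exactness to `κ`
  have hdesc : ∀ w : b → κ, M1κ *ᵥ w = 0 → M0κ *ᵥ (g0 *ᵥ w) = w := by
    intro w hw
    have hw' : (M1.map π) *ᵥ (ι ∘ w) = 0 := by
      funext i
      rw [← e1, ← RingHom.map_mulVec, hw]
      simp
    obtain ⟨y, hy⟩ := hex _ hw'
    have hm : (M0.map π) * g0.map ι * (M0.map π) = M0.map π := by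
      rw [← e0, ← Matrix.map_mul, ← Matrix.map_mul, hg0]
    funext i
    apply hι
    rw [RingHom.map_mulVec, e0]
    have h2 : (ι ∘ fun i => (g0 *ᵥ w) i) = g0.map ι *ᵥ (ι ∘ w) := by
      funext j
      simp only [Function.comp]
      rw [RingHom.map_mulVec]
    have h3 : (fun j => ι ((g0 *ᵥ w) j)) = g0.map ι *ᵥ (ι ∘ w) := h2
    show (M0.map π *ᵥ (fun j => ι ((g0 *ᵥ w) j))) i = ι (w i)
    rw [h3, ← hy, Matrix.mulVec_mulVec, Matrix.mulVec_mulVec, hm, hy]
    rfl
  -- the homotopy over `κ`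
  let G1 : Matrix a b κ := g0 * (1 - g1 * M1κ)
  let G2 : Matrix b c κ := g1
  have hG : M0κ * G1 + G2 * M1κ = 1 := by
    apply Matrix.toLin'.injective
    refine LinearMap.ext fun x => ?_
    have hw : M1κ *ᵥ (x - g1 *ᵥ (M1κ *ᵥ x)) = 0 := by
      rw [Matrix.mulVec_sub, Matrix.mulVec_mulVec, Matrix.mulVec_mulVec, hg1, sub_self]
    have := hdesc _ hw
    have e : (M0κ * G1 + G2 * M1κ) *ᵥ x = M0κ *ᵥ (g0 *ᵥ (x - g1 *ᵥ (M1κ *ᵥ x))) + g1 *ᵥ (M1κ *ᵥ x) := by
      simp only [G1, G2, Matrix.add_mulVec, ← Matrix.mulVec_mulVec, Matrix.sub_mulVec,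
        Matrix.one_mulVec]
    rw [Matrix.toLin'_apply, e, this, Matrix.toLin'_apply, Matrix.one_mulVec]
    abel
  -- common denominators
  clear_value G1 G2
  obtain ⟨s, hs, hlift⟩ := exists_common_denom π
    (T := (a × b) ⊕ (b × c))
    (Sum.elim (fun p => ι (G1 p.1 p.2)) (fun p => ι (G2 p.1 p.2)))
    (by
      rintro (p | p)
      · exact (G1 p.1 p.2).2
      · exact (G2 p.1 p.2).2)
  choose A hA using hlift
  refine ⟨s, fun i j => A (Sum.inl (i, j)), fun i j => A (Sum.inr (i, j)), hs, ?_⟩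
  have h1 : (Matrix.of fun i j => A (Sum.inl (i, j)) : Matrix a b B).map π = π s • G1.map ι := by
    ext i j
    exact hA (Sum.inl (i, j))
  have h2 : (Matrix.of fun i j => A (Sum.inr (i, j)) : Matrix b c B).map π = π s • G2.map ι := by
    ext i j
    exact hA (Sum.inr (i, j))
  have h3 : (M0κ * G1 + G2 * M1κ).map ι = (1 : Matrix b b K) := by
    rw [hG]
    exact Matrix.map_one _ (map_zero ι) (map_one ι)
  have h4 : (M0 * (Matrix.of fun i j => A (Sum.inl (i, j))) +
      (Matrix.of fun i j => A (Sum.inr (i, j))) * M1).map π = π s • (1 : Matrix b b K) := by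
    rw [Matrix.map_add _ (map_add π), Matrix.map_mul, Matrix.map_mul, h1, h2, ← e0, ← e1]
    rw [← h3, Matrix.map_add _ (map_add ι), Matrix.map_mul, Matrix.map_mul]
    rw [Matrix.mul_smul, Matrix.smul_mul, smul_add]
  exact h4

/-- Exactness in the middle is an open condition, for points in arbitrary fields. -/
theorem open_exact_uni {B : Type*} {K : Type v} [CommRing B] [Field K] (π : B →+* K)
    {a b c : Type*} [Fintype a] [Fintype b] [Fintype c]
    [DecidableEq a] [DecidableEq b] [DecidableEq c]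
    (M0 : Matrix b a B) (M1 : Matrix c b B) (h : M1 * M0 = 0)
    (hex : ∀ x : b → K, (M1.map π) *ᵥ x = 0 → ∃ y : a → K, (M0.map π) *ᵥ y = x) :
    ∃ f : B, π f ≠ 0 ∧ ∀ (K' : Type v) [Field K'] (π' : B →+* K'), π' f ≠ 0 →
      ∀ x : b → K', (M1.map π') *ᵥ x = 0 → ∃ y : a → K', (M0.map π') *ᵥ y = x := by
  classical
  obtain ⟨s, H1, H2, hs, hE⟩ := exists_homotopy π M0 M1 hex
  set E := M0 * H1 + H2 * M1 with hEdef
  refine ⟨E.det, ?_, ?_⟩
  · have : π E.det = (E.map π).det := by
      rw [RingHom.map_det]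
      rfl
    rw [this, hE, Matrix.det_smul, Matrix.det_one, mul_one]
    exact pow_ne_zero _ hs
  · intro K' _ π' hf x hx
    set E' := E.map π' with hE'
    have hdet : E'.det ≠ 0 := by
      have : π' E.det = (E.map π').det := by
        rw [RingHom.map_det]
        rfl
      rw [← hE', ← this] at *
      exact hf
    have hD : (M1.map π') * (M0.map π') = 0 := by
      rw [← Matrix.map_mul, h]
      ext i j
      simp
    have hinj : ∀ y, E' *ᵥ y = 0 → y = 0 := fun y hy => Matrix.eq_zero_of_mulVec_eq_zero hdet hy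
    have hsplit : ∀ y, E' *ᵥ y = M0.map π' *ᵥ (H1.map π' *ᵥ y) + H2.map π' *ᵥ (M1.map π' *ᵥ y) := by
      intro y
      rw [hE', hEdef, Matrix.map_add _ (map_add π'), Matrix.map_mul, Matrix.map_mul,
        Matrix.add_mulVec, ← Matrix.mulVec_mulVec, ← Matrix.mulVec_mulVec]
    let L : (b → K') →ₗ[K'] (b → K') := Matrix.toLin' E'
    let W := LinearMap.ker (Matrix.toLin' (M1.map π'))
    have hmaps : ∀ y ∈ W, L y ∈ W := by
      intro y hy
      have hy0 : M1.map π' *ᵥ y = 0 := by
        have h' := LinearMap.mem_ker.1 hy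
        rwa [Matrix.toLin'_apply] at h'
      have : L y = M0.map π' *ᵥ (H1.map π' *ᵥ y) := by
        show E' *ᵥ y = _
        rw [hsplit, hy0, Matrix.mulVec_zero, add_zero]
      rw [this]
      show Matrix.toLin' (M1.map π') _ = 0
      rw [Matrix.toLin'_apply, Matrix.mulVec_mulVec, hD, Matrix.zero_mulVec]
    let Lr : W →ₗ[K'] W := L.restrict hmaps
    have hLinj : Function.Injective Lr := by
      rw [injective_iff_map_eq_zero]
      intro y hy
      have e : E' *ᵥ (y : b → K') = 0 := congrArg Subtype.val hy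
      exact Subtype.ext (hinj _ e)
    have hLsurj : Function.Surjective Lr := LinearMap.injective_iff_surjective.mp hLinj
    have hxW : x ∈ W := by
      show Matrix.toLin' (M1.map π') x = 0
      rw [Matrix.toLin'_apply, hx]
    obtain ⟨y, hy⟩ := hLsurj ⟨x, hxW⟩
    have hyx : E' *ᵥ (y : b → K') = x := congrArg Subtype.val hy
    have hy0 : M1.map π' *ᵥ (y : b → K') = 0 := by
      have h' := LinearMap.mem_ker.1 y.2
      rwa [Matrix.toLin'_apply] at h'
    refine ⟨H1.map π' *ᵥ (y : b → K'), ?_⟩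
    rw [← hyx, hsplit, hy0, Matrix.mulVec_zero, add_zero]

end Vale.Agent.Lib.P176.Uni
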